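import Vale.Agent.P159.T1.H619.ArmI

/-!
The arm bound in the notation of `H934.Amp` (row (b) of `StmtMain`).
-/

namespace Vale.Agent.P159.T1.H619

open Vale.Agent.P159.T1.H254 (adjS)
open Vale.Agent.P159.T1.H897 (Wk ex)
open Vale.Agent.P159.T1.H934 (W grd adjG)
open Vale.Agent.P159.H353 (wI)

variable {V E : Type} [Fintype V] [DecidableEq V] [Fintype E] {s t : E → V}

open Classical in
/-- **Arm bound**, with the extra charge `γ`: `F` is an upward closed property of the set of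
vertices with height `≤ 0`; `hsep` is wanted only for the sets which contain `P`. -/
theorem arm_W (hc : H934.Conn s t) {J : E → ℝ} (hJ : ∀ e, 0 ≤ J e) {P Q A B : Finset V}
    (hP : P.Nonempty) {ρA ρB γ : V → ℝ} (hA0 : ∀ v, 0 ≤ ρA v) (hB0 : ∀ v, 0 ≤ ρB v)
    (hγ0 : ∀ v, 0 ≤ γ v) (hA : ∀ v, v ∉ A → ρA v = 0) (hB : ∀ v, v ∉ B → ρB v = 0)
    (hγ : ∀ v, v ∉ B → γ v = 0) {F : Finset V → Prop}
    (hF : ∀ S T : Finset V, S ⊆ T → F S → F T)
    (hsep : ∀ T : Finset V, P ⊆ T → F T → ∀ x ∈ A, ∀ y ∈ B, x ∉ T ∪ Q →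
      ¬ Relation.ReflTransGen (adjS s t (T ∪ Q)) x y) :
    (∑' h : V → ℤ, if (∀ v ∈ P, h v = 0) ∧ F (Finset.univ.filter fun v => h v ≤ 0) then
        W (grd s t) J h * Real.exp (∑ v, (ρA v + ρB v) * (h v : ℝ)) else 0) *
      (∑' h : V → ℤ, if ∀ v ∈ P ∪ Q, h v = 0 then
        W (grd s t) J h * Real.exp (∑ v, (ρA v + ρB v) * (h v : ℝ)) else 0) ≤
    (∑' h : V → ℤ, if ∀ v ∈ P, h v = 0 then
        W (grd s t) J h * Real.exp (∑ v, (ρA v + ρB v) * (h v : ℝ)) else 0) *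
      (∑' h : V → ℤ, if ∀ v ∈ P ∪ Q, h v = 0 then
        W (grd s t) J h * Real.exp (∑ v, (ρA v - ρB v - γ v) * (h v : ℝ)) else 0) := by
  obtain ⟨p, hp⟩ := hP
  have H : ArmHyp s t (fun T => P ⊆ T ∧ F T) A B P Q ρA ρB γ :=
    { up := fun S T hST h => ⟨h.1.trans hST, hF S T hST h.2⟩
      a0 := hA0
      b0 := hB0
      g0 := hγ0
      sa := hA
      sb := hB
      sg := hγ
      sep := fun T hT => hsep T hT.1 hT.2
      conn := fun v => ⟨p, hp, Relation.ReflTransGen.mono (fun x y hxy => by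
        obtain ⟨e, he⟩ := hxy
        refine ⟨by simp, by simp, e, ?_⟩
        rcases he with ⟨h1, h2⟩ | ⟨h1, h2⟩
        · exact Or.inl ⟨h1, h2⟩
        · exact Or.inr ⟨h1, h2⟩) p v (hc p v)⟩ }
  have key := arm_wI (s := s) (t := t) hJ _ _ _ _ _ _ _ _ H
  refine le_trans (le_of_eq ?_) (key.trans (le_of_eq ?_))
  · congr 1
    · refine tsum_congr fun h => ?_
      have hiff : ((∀ v ∈ P, h v = 0) ∧ F (Finset.univ.filter fun v => h v ≤ 0)) ↔
          ((∀ v ∈ P, h v = 0) ∧ (P ⊆ Finset.univ.filter fun v => h v ≤ 0) ∧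
            F (Finset.univ.filter fun v => h v ≤ 0)) := by
        constructor
        · rintro ⟨h1, h2⟩
          exact ⟨h1, fun v hv => Finset.mem_filter.2 ⟨Finset.mem_univ v, (h1 v hv).le⟩, h2⟩
        · rintro ⟨h1, _, h2⟩
          exact ⟨h1, h2⟩
      by_cases h1 : (∀ v ∈ P, h v = 0) ∧ F (Finset.univ.filter fun v => h v ≤ 0)
      · rw [if_pos h1, if_pos (hiff.1 h1)]
        rfl
      · rw [if_neg h1, if_neg fun h2 => h1 (hiff.2 h2)]
    · refine tsum_congr fun h => ?_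
      by_cases h1 : ∀ v ∈ P ∪ Q, h v = 0
      · rw [if_pos h1, if_pos h1]
        rfl
      · rw [if_neg h1, if_neg h1]
  · congr 1
    · refine tsum_congr fun h => ?_
      by_cases h1 : ∀ v ∈ P, h v = 0
      · rw [if_pos h1, if_pos h1]
        rfl
      · rw [if_neg h1, if_neg h1]
    · refine tsum_congr fun h => ?_
      by_cases h1 : ∀ v ∈ P ∪ Q, h v = 0
      · rw [if_pos h1, if_pos h1]
        rfl
      · rw [if_neg h1, if_neg h1]

open Classical in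
/-- **Arm bound** in the form (b) of `StmtMain` (no extra charge). -/
theorem arm_W0 (hc : H934.Conn s t) {J : E → ℝ} (hJ : ∀ e, 0 ≤ J e) {P Q A B : Finset V}
    (hP : P.Nonempty) {ρA ρB : V → ℝ} (hA0 : ∀ v, 0 ≤ ρA v) (hB0 : ∀ v, 0 ≤ ρB v)
    (hA : ∀ v, v ∉ A → ρA v = 0) (hB : ∀ v, v ∉ B → ρB v = 0) {F : Finset V → Prop}
    (hF : ∀ S T : Finset V, S ⊆ T → F S → F T)
    (hsep : ∀ T : Finset V, P ⊆ T → F T → ∀ x ∈ A, ∀ y ∈ B, x ∉ T ∪ Q →
      ¬ Relation.ReflTransGen (adjS s t (T ∪ Q)) x y) :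
    (∑' h : V → ℤ, if (∀ v ∈ P, h v = 0) ∧ F (Finset.univ.filter fun v => h v ≤ 0) then
        W (grd s t) J h * Real.exp (∑ v, (ρA v + ρB v) * (h v : ℝ)) else 0) *
      (∑' h : V → ℤ, if ∀ v ∈ P ∪ Q, h v = 0 then
        W (grd s t) J h * Real.exp (∑ v, (ρA v + ρB v) * (h v : ℝ)) else 0) ≤
    (∑' h : V → ℤ, if ∀ v ∈ P, h v = 0 then
        W (grd s t) J h * Real.exp (∑ v, (ρA v + ρB v) * (h v : ℝ)) else 0) *
      (∑' h : V → ℤ, if ∀ v ∈ P ∪ Q, h v = 0 then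
        W (grd s t) J h * Real.exp (∑ v, (ρA v - ρB v) * (h v : ℝ)) else 0) := by
  have h := arm_W hc hJ hP hA0 hB0 (γ := fun _ => 0) (fun _ => le_rfl) hA hB (fun _ _ => rfl)
    hF hsep
  simpa only [sub_zero] using h

end Vale.Agent.P159.T1.H619
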