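import Mathlib

/-!
Sign assignments on a finite graph: constant along the edges of `C`, positive on `G`; their number
is supermodular, and one more edge costs at most a factor `2`.
-/

open Finset

namespace Vale.Agent.P159.T1.H619

section signs

variable {V E : Type} [Fintype V] [DecidableEq V] [DecidableEq E]

/-- sign assignments, constant along the edges of `C`, `+` on `G` -/
def SG (s t : E → V) (C : Finset E) (G : Finset V) : Finset (V → Bool) :=
  Finset.univ.filter fun x => (∀ e ∈ C, x (s e) = x (t e)) ∧ ∀ v ∈ G, x v = true

/-- the product of two sign assignments -/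
def xn (x y : V → Bool) : V → Bool := fun v => x v == y v

variable {s t : E → V} {C C' : Finset E} {G G' : Finset V}

omit [DecidableEq E] in
lemma mem_SG {x : V → Bool} : x ∈ SG s t C G ↔
    (∀ e ∈ C, x (s e) = x (t e)) ∧ ∀ v ∈ G, x v = true := by
  unfold SG
  simp

omit [Fintype V] [DecidableEq V] in
lemma xn_cancel {x y z : V → Bool} (h : xn x z = xn y z) : x = y := by
  funext v
  have := congrFun h v
  simp only [xn] at this
  revert this
  cases x v <;> cases y v <;> cases z v <;> simp

omit [Fintype V] [DecidableEq V] in
lemma xn_cancel_left {x y z : V → Bool} (h : xn z x = xn z y) : x = y := by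
  funext v
  have := congrFun h v
  simp only [xn] at this
  revert this
  cases x v <;> cases y v <;> cases z v <;> simp

/-- supermodularity -/
theorem card_SG_super : (SG s t C G).card * (SG s t C' G').card ≤
    (SG s t (C ∩ C') (G ∩ G')).card * (SG s t (C ∪ C') (G ∪ G')).card := by
  classical
  set S := SG s t C G ×ˢ SG s t C' G' with hS
  have h1 : S.card ≤ (SG s t (C ∪ C') (G ∪ G')).card * (S.image fun p => xn p.1 p.2).card := by
    refine Finset.card_le_mul_card_image S _ ?_
    intro z hz
    obtain ⟨p0, hp0, rfl⟩ := Finset.mem_image.1 hz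
    refine Finset.card_le_card_of_injOn (fun p => xn p.1 p0.1) ?_ ?_
    · intro p hp
      rw [Finset.mem_coe, Finset.mem_filter] at hp
      obtain ⟨hp, heq⟩ := hp
      rw [hS, Finset.mem_product, mem_SG, mem_SG] at hp hp0
      obtain ⟨⟨a1, a2⟩, b1, b2⟩ := hp
      obtain ⟨⟨c1, c2⟩, d1, d2⟩ := hp0
      have key : ∀ v, (p.1 v == p0.1 v) = (p.2 v == p0.2 v) := by
        intro v
        have := congrFun heq v
        simp only [xn] at this
        revert this
        cases p.1 v <;> cases p.2 v <;> cases p0.1 v <;> cases p0.2 v <;> simp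
      rw [Finset.mem_coe, mem_SG]
      constructor
      · intro e he
        simp only [xn]
        rcases Finset.mem_union.1 he with he | he
        · rw [a1 e he, c1 e he]
        · rw [key, key, b1 e he, d1 e he]
      · intro v hv
        simp only [xn]
        rcases Finset.mem_union.1 hv with hv | hv
        · rw [a2 v hv, c2 v hv]; rfl
        · rw [key, b2 v hv, d2 v hv]; rfl
    · intro p hp q hq hpq
      rw [Finset.mem_coe, Finset.mem_filter] at hp hq
      have e1 : p.1 = q.1 := xn_cancel hpq
      have e2 : xn p.1 p.2 = xn p.1 q.2 := by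
        rw [hp.2, ← hq.2, e1]
      exact Prod.ext e1 (xn_cancel_left e2)
  have h2 : (S.image fun p => xn p.1 p.2) ⊆ SG s t (C ∩ C') (G ∩ G') := by
    intro z hz
    obtain ⟨p, hp, rfl⟩ := Finset.mem_image.1 hz
    rw [hS, Finset.mem_product, mem_SG, mem_SG] at hp
    obtain ⟨⟨a1, a2⟩, b1, b2⟩ := hp
    rw [mem_SG]
    constructor
    · intro e he
      obtain ⟨h1, h2⟩ := Finset.mem_inter.1 he
      simp only [xn]
      rw [a1 e h1, b1 e h2]
    · intro v hv
      obtain ⟨h1, h2⟩ := Finset.mem_inter.1 hv
      simp only [xn]
      rw [a2 v h1, b2 v h2]; rfl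
  calc (SG s t C G).card * (SG s t C' G').card = S.card := by rw [hS, Finset.card_product]
    _ ≤ _ := h1
    _ ≤ (SG s t (C ∪ C') (G ∪ G')).card * (SG s t (C ∩ C') (G ∩ G')).card :=
        Nat.mul_le_mul_left _ (Finset.card_le_card h2)
    _ = _ := Nat.mul_comm _ _

/-- one more edge -/
theorem card_SG_insert (e : E) :
    (SG s t C G).card ≤ 2 * (SG s t (insert e C) G).card := by
  classical
  have h1 : (SG s t C G).card ≤ (SG s t (insert e C) G).card *
      ((SG s t C G).image fun x => (x (s e) == x (t e))).card := by
    refine Finset.card_le_mul_card_image _ _ ?_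
    intro z hz
    obtain ⟨x0, hx0, rfl⟩ := Finset.mem_image.1 hz
    refine Finset.card_le_card_of_injOn (fun x => xn x x0) ?_ ?_
    · intro x hx
      rw [Finset.mem_coe, Finset.mem_filter] at hx
      obtain ⟨hx, heq⟩ := hx
      rw [mem_SG] at hx hx0
      rw [Finset.mem_coe, mem_SG]
      constructor
      · intro e' he'
        simp only [xn]
        rcases Finset.mem_insert.1 he' with rfl | he'
        · revert heq
          cases x (s e') <;> cases x (t e') <;> cases x0 (s e') <;> cases x0 (t e') <;> simp
        · rw [hx.1 e' he', hx0.1 e' he']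
      · intro v hv
        simp only [xn]
        rw [hx.2 v hv, hx0.2 v hv]; rfl
    · intro x _ y _ hxy
      exact xn_cancel hxy
  refine h1.trans ?_
  rw [Nat.mul_comm 2]
  refine Nat.mul_le_mul_left _ ((Finset.card_le_univ _).trans ?_)
  simp

/-- more edges -/
theorem card_SG_union (X : Finset E) :
    (SG s t C G).card ≤ 2 ^ X.card * (SG s t (C ∪ X) G).card := by
  classical
  induction X using Finset.induction_on with
  | empty => simp
  | @insert e X he ih =>
    rw [Finset.card_insert_of_notMem he, pow_succ]
    have h1 := card_SG_insert (s := s) (t := t) (C := C ∪ X) (G := G) e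
    rw [← Finset.union_insert] at h1
    calc (SG s t C G).card ≤ 2 ^ X.card * (SG s t (C ∪ X) G).card := ih
      _ ≤ 2 ^ X.card * (2 * (SG s t (C ∪ insert e X) G).card) := Nat.mul_le_mul_left _ h1
      _ = _ := by ring

end signs

end Vale.Agent.P159.T1.H619
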