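import Vale.Agent.P159.T1.H254.UWDefs
import Vale.Agent.P159.T1.H619.Sgn
import Mathlib.Combinatorics.SetFamily.FourFunctions

/-!
The joint law of the absolute values `a = |h|` and of the ghost edges `G` for integer heights with
unit steps and a tilt `ρ ≥ 0` satisfies the lattice condition.
-/

open Finset

namespace Vale.Agent.P159.T1.H619

open Vale.Agent.P159.T1.H254 (ker)

lemma ker_nonneg {b : ℝ} (hb : 0 ≤ b) (n : ℤ) : 0 ≤ ker 1 b n := by
  unfold ker
  split_ifs <;> linarith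

lemma ker_zero (b : ℝ) : ker 1 b 0 = 1 := by
  unfold ker
  simp

lemma ker_one {b : ℝ} {n : ℤ} (h : |n| = 1) : ker 1 b n = b := by
  unfold ker
  rw [if_neg (by rintro rfl; simp at h), if_pos h]

lemma ker_big {b : ℝ} {n : ℤ} (h : 1 < |n|) : ker 1 b n = 0 := by
  unfold ker
  rw [if_neg (by rintro rfl; simp at h), if_neg h.ne']

lemma ker_neg (b : ℝ) (n : ℤ) : ker 1 b (-n) = ker 1 b n := by
  unfold ker
  simp

/-- the inequality for one edge: values `p, q` and `p', q'` at its ends -/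
lemma ker_latt {b : ℝ} (hb : 0 ≤ b) (hb2 : 2 * b ^ 2 ≤ 1) (p q p' q' : ℕ) :
    ker 1 b ((q : ℤ) - p) * ker 1 b ((q' : ℤ) - p') *
      (if (p ⊔ p' ≠ 0 ∧ q ⊔ q' ≠ 0) ∧ ¬ (p ≠ 0 ∧ q ≠ 0) ∧ ¬ (p' ≠ 0 ∧ q' ≠ 0) then 2 else 1) ≤
    ker 1 b (((q ⊓ q' : ℕ) : ℤ) - (p ⊓ p' : ℕ)) * ker 1 b (((q ⊔ q' : ℕ) : ℤ) - (p ⊔ p' : ℕ)) := by
  rcases le_total p p' with h1 | h1 <;> rcases le_total q q' with h2 | h2
  · rw [inf_eq_left.2 h1, inf_eq_left.2 h2, sup_eq_right.2 h1, sup_eq_right.2 h2, if_neg, mul_one]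
    rintro ⟨h3, _, h4⟩
    exact h4 h3
  · rcases eq_or_lt_of_le h1 with rfl | h1'
    · rw [inf_idem, inf_eq_right.2 h2, sup_idem, sup_eq_left.2 h2, if_neg, mul_one, mul_comm]
      rintro ⟨h3, h4, _⟩
      exact h4 h3
    rcases eq_or_lt_of_le h2 with rfl | h2'
    · rw [inf_idem, inf_eq_left.2 h1, sup_idem, sup_eq_right.2 h1, if_neg, mul_one]
      rintro ⟨h3, _, h4⟩
      exact h4 h3
    by_cases h3 : 1 < |(q : ℤ) - p|
    · rw [ker_big h3]
      simp only [zero_mul]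
      exact mul_nonneg (ker_nonneg hb _) (ker_nonneg hb _)
    by_cases h4 : 1 < |(q' : ℤ) - p'|
    · rw [ker_big h4]
      simp only [mul_zero, zero_mul]
      exact mul_nonneg (ker_nonneg hb _) (ker_nonneg hb _)
    rw [not_lt, abs_le] at h3 h4
    have e1 : q = p + 1 := by omega
    have e2 : p' = p + 1 := by omega
    have e3 : q' = p := by omega
    subst e1 e2 e3
    rw [inf_eq_left.2 h1, inf_eq_right.2 h2, sup_eq_right.2 h1, sup_eq_left.2 h2]
    rw [sub_self, sub_self, ker_zero, ker_one (by push_cast; simp), ker_one (by push_cast; simp)]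
    split_ifs <;> nlinarith
  · rcases eq_or_lt_of_le h1 with rfl | h1'
    · rw [inf_idem, inf_eq_left.2 h2, sup_idem, sup_eq_right.2 h2, if_neg, mul_one]
      rintro ⟨h3, _, h4⟩
      exact h4 h3
    rcases eq_or_lt_of_le h2 with rfl | h2'
    · rw [inf_idem, inf_eq_right.2 h1, sup_idem, sup_eq_left.2 h1, if_neg, mul_one, mul_comm]
      rintro ⟨h3, h4, _⟩
      exact h4 h3
    by_cases h3 : 1 < |(q : ℤ) - p|
    · rw [ker_big h3]
      simp only [zero_mul]
      exact mul_nonneg (ker_nonneg hb _) (ker_nonneg hb _)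
    by_cases h4 : 1 < |(q' : ℤ) - p'|
    · rw [ker_big h4]
      simp only [mul_zero, zero_mul]
      exact mul_nonneg (ker_nonneg hb _) (ker_nonneg hb _)
    rw [not_lt, abs_le] at h3 h4
    have e1 : p = q + 1 := by omega
    have e2 : q' = q + 1 := by omega
    have e3 : p' = q := by omega
    subst e1 e2 e3
    rw [inf_eq_right.2 h1, inf_eq_left.2 h2, sup_eq_left.2 h1, sup_eq_right.2 h2]
    rw [sub_self, sub_self, ker_zero, ker_one (by push_cast; simp), ker_one (by push_cast; simp)]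
    split_ifs <;> nlinarith
  · rw [inf_eq_right.2 h1, inf_eq_right.2 h2, sup_eq_left.2 h1, sup_eq_left.2 h2, if_neg, mul_one,
      mul_comm]
    rintro ⟨h3, h4, _⟩
    exact h4 h3

/-- the weight `1/2` of the value `0` (two sign assignments) -/
noncomputable def cc (i : ℕ) : ℝ := if i = 0 then 1 / 2 else 1

lemma cc_pos (i : ℕ) : 0 < cc i := by
  unfold cc
  split_ifs <;> norm_num

lemma cc_latt (p p' : ℕ) : cc p * cc p' = cc (p ⊓ p') * cc (p ⊔ p') := by
  rcases le_total p p' with h | h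
  · rw [inf_eq_left.2 h, sup_eq_right.2 h]
  · rw [inf_eq_right.2 h, sup_eq_left.2 h, mul_comm]

/-- the weight of a closed (`false`) or open (`true`) ghost edge -/
noncomputable def kap (r : ℝ) (i : ℕ) (b : Bool) : ℝ :=
  if b then Real.exp (r * i) - Real.exp (-(r * i)) else Real.exp (-(r * i))

lemma kap_nonneg {r : ℝ} (hr : 0 ≤ r) (i : ℕ) (b : Bool) : 0 ≤ kap r i b := by
  unfold kap
  split_ifs
  · rw [sub_nonneg]
    refine Real.exp_le_exp.2 ?_
    have : 0 ≤ r * i := mul_nonneg hr (Nat.cast_nonneg _)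
    linarith
  · exact (Real.exp_pos _).le

lemma kap_cross {r : ℝ} (hr : 0 ≤ r) {p p' : ℕ} (h : p ≤ p') :
    kap r p true * kap r p' false ≤ kap r p false * kap r p' true := by
  have hp : r * p ≤ r * p' := mul_le_mul_of_nonneg_left (Nat.cast_le.2 h) hr
  unfold kap
  simp only [if_true, Bool.false_eq_true, if_false]
  have e1 : Real.exp (r * p) * Real.exp (-(r * p')) ≤ Real.exp (-(r * p)) * Real.exp (r * p') := by
    rw [← Real.exp_add, ← Real.exp_add]
    exact Real.exp_le_exp.2 (by linarith)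
  have e2 : Real.exp (-(r * p)) * Real.exp (-(r * p')) =
      Real.exp (-(r * p')) * Real.exp (-(r * p)) := mul_comm _ _
  nlinarith [e1, e2]

lemma kap_latt {r : ℝ} (hr : 0 ≤ r) (p p' : ℕ) (b b' : Bool) :
    kap r p b * kap r p' b' ≤ kap r (p ⊓ p') (b && b') * kap r (p ⊔ p') (b || b') := by
  rcases le_total p p' with h | h
  · rw [inf_eq_left.2 h, sup_eq_right.2 h]
    cases b <;> cases b' <;> simp only [Bool.and_true, Bool.and_false, Bool.true_and,
      Bool.false_and, Bool.or_true, Bool.or_false, Bool.true_or, Bool.false_or] <;>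
      first | exact le_refl _ | exact kap_cross hr h
  · rw [inf_eq_right.2 h, sup_eq_left.2 h]
    cases b <;> cases b' <;> simp only [Bool.and_true, Bool.and_false, Bool.true_and,
      Bool.false_and, Bool.or_true, Bool.or_false, Bool.true_or, Bool.false_or]
    · exact (mul_comm _ _).le
    · rw [mul_comm]; exact kap_cross hr h
    · exact (mul_comm _ _).le
    · exact (mul_comm _ _).le

lemma five_mul {p1 p2 p3 p4 k1 k2 k3 k4 T c1 c2 c3 c4 g1 g2 g3 g4 n1 n2 n3 n4 : ℝ}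
    (hp1 : 0 ≤ p1) (hp2 : 0 ≤ p2) (hk1 : 0 ≤ k1) (hk2 : 0 ≤ k2)
    (hc1 : 0 ≤ c1) (hc2 : 0 ≤ c2) (hg1 : 0 ≤ g1) (hg2 : 0 ≤ g2)
    (hn3 : 0 ≤ n3) (hn4 : 0 ≤ n4) (hT0 : 0 ≤ T)
    (hp : p1 * p2 ≤ p3 * p4) (hk : k1 * k2 * T ≤ k3 * k4) (hc : c1 * c2 = c3 * c4)
    (hg : g1 * g2 ≤ g3 * g4) (hn : n1 * n2 ≤ T * (n3 * n4)) :
    (p1 * k1 * c1 * g1 * n1) * (p2 * k2 * c2 * g2 * n2) ≤
      (p3 * k3 * c3 * g3 * n3) * (p4 * k4 * c4 * g4 * n4) := by
  have a1 : 0 ≤ p1 * p2 := mul_nonneg hp1 hp2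
  have a2 : 0 ≤ k1 * k2 := mul_nonneg hk1 hk2
  have a3 : 0 ≤ c1 * c2 := mul_nonneg hc1 hc2
  have a4 : 0 ≤ g1 * g2 := mul_nonneg hg1 hg2
  have a5 : 0 ≤ n3 * n4 := mul_nonneg hn3 hn4
  have a6 : 0 ≤ k1 * k2 * T := mul_nonneg a2 hT0
  calc (p1 * k1 * c1 * g1 * n1) * (p2 * k2 * c2 * g2 * n2)
      = ((p1 * p2) * (c1 * c2) * (g1 * g2) * (k1 * k2)) * (n1 * n2) := by ring
    _ ≤ ((p1 * p2) * (c1 * c2) * (g1 * g2) * (k1 * k2)) * (T * (n3 * n4)) :=
        mul_le_mul_of_nonneg_left hn (mul_nonneg (mul_nonneg (mul_nonneg a1 a3) a4) a2)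
    _ = (p1 * p2) * (g1 * g2) * (k1 * k2 * T) * ((c1 * c2) * (n3 * n4)) := by ring
    _ ≤ (p3 * p4) * (g3 * g4) * (k3 * k4) * ((c1 * c2) * (n3 * n4)) := by
        refine mul_le_mul_of_nonneg_right ?_ (mul_nonneg a3 a5)
        refine mul_le_mul (mul_le_mul hp hg a4 (a1.trans hp)) hk a6 ?_
        exact mul_nonneg (a1.trans hp) (a4.trans hg)
    _ = _ := by rw [hc]; ring

section graph

variable {V E : Type} [Fintype V] [DecidableEq V] [Fintype E] [DecidableEq E]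

/-- the edges with both ends at nonzero height -/
def CE (s t : E → V) {M : ℕ} (a : V → Fin (M + 1)) : Finset E :=
  Finset.univ.filter fun e => (a (s e) : ℕ) ≠ 0 ∧ (a (t e) : ℕ) ≠ 0

/-- the joint weight of the absolute values and the ghost edges -/
noncomputable def mu (s t : E → V) (β : E → ℝ) (ρ : V → ℝ) (P : Finset V) {M : ℕ}
    (a : V → Fin (M + 1)) (G : Finset V) : ℝ :=
  (if ∀ v ∈ P, (a v : ℕ) = 0 then 1 else 0) *
    (∏ e, ker 1 (β e) (((a (t e) : ℕ) : ℤ) - ((a (s e) : ℕ) : ℤ))) *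
    (∏ v, cc (a v)) * (∏ v, kap (ρ v) (a v) (decide (v ∈ G))) *
    ((SG s t (CE s t a) G).card : ℝ)

variable {s t : E → V} {β : E → ℝ} {ρ : V → ℝ} {P : Finset V} {M : ℕ}

omit [DecidableEq E] in
lemma mu_nonneg (hβ : ∀ e, 0 ≤ β e) (hρ : ∀ v, 0 ≤ ρ v) (a : V → Fin (M + 1)) (G : Finset V) :
    0 ≤ mu s t β ρ P a G := by
  unfold mu
  refine mul_nonneg (mul_nonneg (mul_nonneg (mul_nonneg ?_ ?_) ?_) ?_) (Nat.cast_nonneg _)
  · split_ifs <;> norm_num
  · exact Finset.prod_nonneg fun e _ => ker_nonneg (hβ e) _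
  · exact Finset.prod_nonneg fun v _ => (cc_pos _).le
  · exact Finset.prod_nonneg fun v _ => kap_nonneg (hρ v) _ _

lemma val_inf (i j : Fin (M + 1)) : ((i ⊓ j : Fin (M + 1)) : ℕ) = (i : ℕ) ⊓ (j : ℕ) := by
  rcases le_total i j with h | h
  · rw [inf_eq_left.2 h, inf_eq_left.2 (Fin.le_def.1 h)]
  · rw [inf_eq_right.2 h, inf_eq_right.2 (Fin.le_def.1 h)]

lemma val_sup (i j : Fin (M + 1)) : ((i ⊔ j : Fin (M + 1)) : ℕ) = (i : ℕ) ⊔ (j : ℕ) := by
  rcases le_total i j with h | h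
  · rw [sup_eq_right.2 h, sup_eq_right.2 (Fin.le_def.1 h)]
  · rw [sup_eq_left.2 h, sup_eq_left.2 (Fin.le_def.1 h)]

theorem mu_latt (hβ : ∀ e, 0 ≤ β e) (hβ2 : ∀ e, 2 * β e ^ 2 ≤ 1) (hρ : ∀ v, 0 ≤ ρ v)
    (a a' : V → Fin (M + 1)) (G G' : Finset V) :
    mu s t β ρ P a G * mu s t β ρ P a' G' ≤
      mu s t β ρ P (a ⊓ a') (G ∩ G') * mu s t β ρ P (a ⊔ a') (G ∪ G') := by
  classical
  set X : Finset E := CE s t (a ⊔ a') \ (CE s t a ∪ CE s t a') with hX
  -- signs
  have hinf : CE s t (a ⊓ a') = CE s t a ∩ CE s t a' := by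
    ext e
    simp only [CE, Finset.mem_filter, Finset.mem_univ, true_and, Finset.mem_inter, Pi.inf_apply,
      val_inf]
    constructor
    · rintro ⟨h1, h2⟩
      refine ⟨⟨?_, ?_⟩, ?_, ?_⟩ <;> intro h <;> simp [h] at h1 h2
    · rintro ⟨⟨h1, h2⟩, h3, h4⟩
      constructor
      · rcases le_total (a (s e) : ℕ) (a' (s e) : ℕ) with h | h
        · rw [inf_eq_left.2 h]; exact h1
        · rw [inf_eq_right.2 h]; exact h3
      · rcases le_total (a (t e) : ℕ) (a' (t e) : ℕ) with h | h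
        · rw [inf_eq_left.2 h]; exact h2
        · rw [inf_eq_right.2 h]; exact h4
  have hsub : CE s t a ∪ CE s t a' ⊆ CE s t (a ⊔ a') := by
    intro e he
    simp only [CE, Finset.mem_filter, Finset.mem_univ, true_and, Finset.mem_union, Pi.sup_apply,
      val_sup] at he ⊢
    rcases he with ⟨h1, h2⟩ | ⟨h1, h2⟩
    · exact ⟨fun h => h1 (by simpa using (le_sup_left.trans h.le : (a (s e) : ℕ) ≤ 0)),
        fun h => h2 (by simpa using (le_sup_left.trans h.le : (a (t e) : ℕ) ≤ 0))⟩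
    · exact ⟨fun h => h1 (by simpa using (le_sup_right.trans h.le : (a' (s e) : ℕ) ≤ 0)),
        fun h => h2 (by simpa using (le_sup_right.trans h.le : (a' (t e) : ℕ) ≤ 0))⟩
  have hun : (CE s t a ∪ CE s t a') ∪ X = CE s t (a ⊔ a') := by
    rw [hX, Finset.union_sdiff_of_subset hsub]
  have hn : ((SG s t (CE s t a) G).card : ℝ) * (SG s t (CE s t a') G').card ≤
      (∏ e, if e ∈ X then (2 : ℝ) else 1) * ((SG s t (CE s t (a ⊓ a')) (G ∩ G')).card *
        (SG s t (CE s t (a ⊔ a')) (G ∪ G')).card) := by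
    have h1 := card_SG_super (s := s) (t := t) (C := CE s t a) (C' := CE s t a') (G := G)
      (G' := G')
    have h2 := card_SG_union (s := s) (t := t) (C := CE s t a ∪ CE s t a') (G := G ∪ G') X
    rw [hun] at h2
    have h3 : (∏ e, if e ∈ X then (2 : ℝ) else 1) = 2 ^ X.card := by
      rw [Finset.prod_ite_mem, Finset.univ_inter, Finset.prod_const]
    rw [h3, hinf]
    have h4 : (SG s t (CE s t a) G).card * (SG s t (CE s t a') G').card ≤
        2 ^ X.card * ((SG s t (CE s t a ∩ CE s t a') (G ∩ G')).card *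
          (SG s t (CE s t (a ⊔ a')) (G ∪ G')).card) := by
      calc (SG s t (CE s t a) G).card * (SG s t (CE s t a') G').card ≤
            (SG s t (CE s t a ∩ CE s t a') (G ∩ G')).card *
              (SG s t (CE s t a ∪ CE s t a') (G ∪ G')).card := h1
        _ ≤ (SG s t (CE s t a ∩ CE s t a') (G ∩ G')).card *
              (2 ^ X.card * (SG s t (CE s t (a ⊔ a')) (G ∪ G')).card) :=
            Nat.mul_le_mul_left _ h2
        _ = _ := by ring
    exact_mod_cast h4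
  -- kernels
  have hk : (∏ e, ker 1 (β e) (((a (t e) : ℕ) : ℤ) - ((a (s e) : ℕ) : ℤ))) *
      (∏ e, ker 1 (β e) (((a' (t e) : ℕ) : ℤ) - ((a' (s e) : ℕ) : ℤ))) *
      (∏ e, if e ∈ X then (2 : ℝ) else 1) ≤
      (∏ e, ker 1 (β e) ((((a ⊓ a') (t e) : ℕ) : ℤ) - (((a ⊓ a') (s e) : ℕ) : ℤ))) *
      (∏ e, ker 1 (β e) ((((a ⊔ a') (t e) : ℕ) : ℤ) - (((a ⊔ a') (s e) : ℕ) : ℤ))) := by
    rw [← Finset.prod_mul_distrib, ← Finset.prod_mul_distrib, ← Finset.prod_mul_distrib]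
    refine Finset.prod_le_prod ?_ ?_
    · intro e _
      refine mul_nonneg (mul_nonneg (ker_nonneg (hβ e) _) (ker_nonneg (hβ e) _)) ?_
      split_ifs <;> norm_num
    · intro e _
      have h := ker_latt (hβ e) (hβ2 e) (a (s e)) (a (t e)) (a' (s e)) (a' (t e))
      simp only [Pi.inf_apply, Pi.sup_apply, val_inf, val_sup]
      refine le_trans (le_of_eq ?_) h
      congr 1
      by_cases he : e ∈ X
      · rw [if_pos he, if_pos]
        rw [hX, Finset.mem_sdiff, Finset.mem_union, not_or] at he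
        obtain ⟨h1, h2, h3⟩ := he
        simp only [CE, Finset.mem_filter, Finset.mem_univ, true_and, Pi.sup_apply, val_sup] at h1 h2 h3
        exact ⟨h1, h2, h3⟩
      · rw [if_neg he, if_neg]
        rintro ⟨h1, h2, h3⟩
        apply he
        rw [hX, Finset.mem_sdiff, Finset.mem_union, not_or]
        simp only [CE, Finset.mem_filter, Finset.mem_univ, true_and, Pi.sup_apply, val_sup]
        exact ⟨h1, h2, h3⟩
  have hc : (∏ v, cc (a v)) * (∏ v, cc (a' v)) =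
      (∏ v, cc ((a ⊓ a') v)) * (∏ v, cc ((a ⊔ a') v)) := by
    rw [← Finset.prod_mul_distrib, ← Finset.prod_mul_distrib]
    refine Finset.prod_congr rfl fun v _ => ?_
    simp only [Pi.inf_apply, Pi.sup_apply, val_inf, val_sup]
    exact cc_latt _ _
  have hg : (∏ v, kap (ρ v) (a v) (decide (v ∈ G))) * (∏ v, kap (ρ v) (a' v) (decide (v ∈ G'))) ≤
      (∏ v, kap (ρ v) ((a ⊓ a') v) (decide (v ∈ G ∩ G'))) *
        (∏ v, kap (ρ v) ((a ⊔ a') v) (decide (v ∈ G ∪ G'))) := by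
    rw [← Finset.prod_mul_distrib, ← Finset.prod_mul_distrib]
    refine Finset.prod_le_prod (fun v _ => mul_nonneg (kap_nonneg (hρ v) _ _)
      (kap_nonneg (hρ v) _ _)) fun v _ => ?_
    simp only [Pi.inf_apply, Pi.sup_apply, val_inf, val_sup, Finset.mem_inter, Finset.mem_union,
      Bool.decide_and, Bool.decide_or]
    exact kap_latt (hρ v) _ _ _ _
  have hp : (if ∀ v ∈ P, (a v : ℕ) = 0 then (1 : ℝ) else 0) *
      (if ∀ v ∈ P, (a' v : ℕ) = 0 then (1 : ℝ) else 0) ≤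
      (if ∀ v ∈ P, ((a ⊓ a') v : ℕ) = 0 then (1 : ℝ) else 0) *
      (if ∀ v ∈ P, ((a ⊔ a') v : ℕ) = 0 then (1 : ℝ) else 0) := by
    by_cases h1 : ∀ v ∈ P, (a v : ℕ) = 0
    · by_cases h2 : ∀ v ∈ P, (a' v : ℕ) = 0
      · rw [if_pos h1, if_pos h2, if_pos, if_pos]
        · intro v hv
          rw [Pi.sup_apply, val_sup, h1 v hv, h2 v hv]; rfl
        · intro v hv
          rw [Pi.inf_apply, val_inf, h1 v hv, h2 v hv]; rfl
      · rw [if_neg h2, mul_zero]
        split_ifs <;> norm_num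
    · rw [if_neg h1, zero_mul]
      split_ifs <;> norm_num
  unfold mu
  refine five_mul ?_ ?_ ?_ ?_ ?_ ?_ ?_ ?_ ?_ ?_ ?_ hp hk hc hg hn
  all_goals first
    | exact Nat.cast_nonneg _
    | exact mul_nonneg (Nat.cast_nonneg _) (Nat.cast_nonneg _)
    | exact Finset.prod_nonneg fun e _ => ker_nonneg (hβ e) _
    | exact Finset.prod_nonneg fun v _ => kap_nonneg (hρ v) _ _
    | exact Finset.prod_nonneg fun v _ => (cc_pos _).le
    | (split_ifs <;> norm_num; done)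
    | (refine Finset.prod_nonneg fun e _ => ?_; split_ifs <;> norm_num)

end graph

end Vale.Agent.P159.T1.H619
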