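import Vale.Agent.P159.T1.H773.Conn
import Vale.Agent.P159.T1.H619.Abs

/-!
The arm bound (P159, plan 104 (4), form (4*)): the probability of an arm of `{h ≤ 0}` under a tilt
`ρ ≥ 0` is at most a quotient of exponential moments in the domain with one more set `Q` pinned
to `0`.
-/

open Finset

namespace Vale.Agent.P159.T1.H619

open Vale.Agent.P159.T1.H254 (ker adjS)
open Vale.Agent.P159.T1.H773 (box mem_box lin)

lemma rt_symm {α : Type} {r : α → α → Prop} (h : ∀ x y, r x y → r y x) {a b : α}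
    (hab : Relation.ReflTransGen r a b) : Relation.ReflTransGen r b a := by
  induction hab with
  | refl => exact Relation.ReflTransGen.refl
  | tail _ hbc ih => exact Relation.ReflTransGen.head (h _ _ hbc) ih

section graph

variable {V E : Type} [Fintype V] [DecidableEq V] [Fintype E] [DecidableEq E]

/-- the height with absolute value `a` and sign `x` -/
def hh {M : ℕ} (a : V → Fin (M + 1)) (x : V → Bool) (v : V) : ℤ :=
  if x v then ((a v : ℕ) : ℤ) else -((a v : ℕ) : ℤ)

/-- the ghost weights with prescribed signs -/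
noncomputable def kq {M : ℕ} (ρ : V → ℝ) (a : V → Fin (M + 1)) (x : V → Bool) (G : Finset V) : ℝ :=
  ∏ v, (if v ∈ G then (if x v then Real.exp (ρ v * (a v : ℕ)) - Real.exp (-(ρ v * (a v : ℕ))) else 0)
    else Real.exp (-(ρ v * (a v : ℕ))))

/-- one step inside `{a ≠ 0}` -/
def st0 (s t : E → V) {M : ℕ} (a : V → Fin (M + 1)) (x y : V) : Prop :=
  (∃ e, (s e = x ∧ t e = y) ∨ (s e = y ∧ t e = x)) ∧ (a x : ℕ) ≠ 0 ∧ (a y : ℕ) ≠ 0

open Classical in
/-- the vertices which are joined inside `{a ≠ 0}` to a vertex of `G` -/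
noncomputable def GC (s t : E → V) {M : ℕ} (a : V → Fin (M + 1)) (G : Finset V) : Finset V :=
  Finset.univ.filter fun v => ∃ g ∈ G, (a g : ℕ) ≠ 0 ∧ Relation.ReflTransGen (st0 s t a) g v

variable {s t : E → V} {β : E → ℝ} {ρ : V → ℝ} {P : Finset V} {M : ℕ}

omit [Fintype E] [DecidableEq E] in
lemma sum_finset_prod (f g : V → ℝ) :
    ∑ G : Finset V, ∏ v, (if v ∈ G then f v else g v) = ∏ v, (f v + g v) := by
  rw [Fintype.prod_add]
  refine Finset.sum_congr rfl fun G _ => ?_
  rw [Finset.prod_ite]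
  congr 1
  · exact Finset.prod_congr (by ext v; simp) fun _ _ => rfl
  · exact Finset.prod_congr (by ext v; simp) fun _ _ => rfl

omit [Fintype E] [DecidableEq E] in
lemma kq_nonneg (hρ : ∀ v, 0 ≤ ρ v) (a : V → Fin (M + 1)) (x : V → Bool) (G : Finset V) :
    0 ≤ kq ρ a x G := by
  unfold kq
  refine Finset.prod_nonneg fun v _ => ?_
  have h : 0 ≤ ρ v * (a v : ℕ) := mul_nonneg (hρ v) (Nat.cast_nonneg _)
  split_ifs
  · rw [sub_nonneg]
    exact Real.exp_le_exp.2 (by linarith)
  · exact le_refl _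
  · exact (Real.exp_pos _).le

omit [Fintype E] [DecidableEq E] in
lemma kap_kq (a : V → Fin (M + 1)) (x : V → Bool) (G : Finset V) :
    (∏ v, kap (ρ v) (a v) (decide (v ∈ G))) * (if ∀ v ∈ G, x v = true then 1 else 0) =
      kq ρ a x G := by
  unfold kq
  split_ifs with h
  · rw [mul_one]
    refine Finset.prod_congr rfl fun v _ => ?_
    unfold kap
    by_cases hv : v ∈ G
    · simp only [hv, decide_true, if_true, h v hv]
    · simp only [hv, decide_false, Bool.false_eq_true, if_false]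
  · rw [mul_zero]
    push Not at h
    obtain ⟨v, hv, hx⟩ := h
    symm
    refine Finset.prod_eq_zero (Finset.mem_univ v) ?_
    rw [if_pos hv, if_neg (by simpa using hx)]

omit [Fintype E] [DecidableEq E] in
lemma sum_kq (a : V → Fin (M + 1)) (x : V → Bool) :
    ∑ G, kq ρ a x G = ∏ v, Real.exp (ρ v * (hh a x v : ℝ)) := by
  unfold kq
  rw [sum_finset_prod (fun v => if x v then Real.exp (ρ v * (a v : ℕ)) -
    Real.exp (-(ρ v * (a v : ℕ))) else 0) (fun v => Real.exp (-(ρ v * (a v : ℕ))))]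
  refine Finset.prod_congr rfl fun v _ => ?_
  unfold hh
  split_ifs
  · simp
  · simp

omit [Fintype E] [DecidableEq E] in
lemma sum_kq_restr (R : Finset V) (a : V → Fin (M + 1)) (x : V → Bool) :
    ∑ G, (if ∀ v ∈ G, v ∉ R then kq ρ a x G else 0) =
      ∏ v, (if v ∈ R then Real.exp (-(ρ v * (a v : ℕ))) else
        Real.exp (ρ v * (hh a x v : ℝ))) := by
  have h1 : ∀ G : Finset V, (if ∀ v ∈ G, v ∉ R then kq ρ a x G else 0) =
      ∏ v, (if v ∈ G then (if v ∈ R then 0 else
        (if x v then Real.exp (ρ v * (a v : ℕ)) - Real.exp (-(ρ v * (a v : ℕ))) else 0))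
        else Real.exp (-(ρ v * (a v : ℕ)))) := by
    intro G
    split_ifs with h
    · unfold kq
      refine Finset.prod_congr rfl fun v _ => ?_
      by_cases hv : v ∈ G
      · rw [if_pos hv, if_pos hv, if_neg (h v hv)]
      · rw [if_neg hv, if_neg hv]
    · push Not at h
      obtain ⟨v, hv, hR⟩ := h
      symm
      refine Finset.prod_eq_zero (Finset.mem_univ v) ?_
      rw [if_pos hv, if_pos hR]
  rw [Finset.sum_congr rfl fun G _ => h1 G, sum_finset_prod (fun v => if v ∈ R then 0 else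
    (if x v then Real.exp (ρ v * (a v : ℕ)) - Real.exp (-(ρ v * (a v : ℕ))) else 0))
    (fun v => Real.exp (-(ρ v * (a v : ℕ))))]
  refine Finset.prod_congr rfl fun v _ => ?_
  unfold hh
  split_ifs
  · simp
  · simp
  · simp

omit [Fintype E] [DecidableEq E] in
/-- the number of sign assignments as a sum -/
lemma card_SG_eq (C : Finset E) (G : Finset V) :
    ((SG s t C G).card : ℝ) = ∑ x ∈ SG s t C ∅, (if ∀ v ∈ G, x v = true then (1 : ℝ) else 0) := by
  rw [Finset.sum_ite, Finset.sum_const_zero, add_zero, Finset.sum_const, nsmul_eq_mul, mul_one]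
  congr 2
  ext x
  rw [Finset.mem_filter, mem_SG, mem_SG]
  constructor
  · rintro ⟨h1, h2⟩
    exact ⟨⟨h1, by simp⟩, h2⟩
  · rintro ⟨⟨h1, _⟩, h2⟩
    exact ⟨h1, h2⟩

omit [Fintype E] [DecidableEq E] in
/-- expansion over the signs -/
lemma expand (C : Finset E) (a : V → Fin (M + 1)) (Φ : Finset V → ℝ) :
    ∑ G, (∏ v, kap (ρ v) (a v) (decide (v ∈ G))) * ((SG s t C G).card : ℝ) * Φ G =
      ∑ x ∈ SG s t C ∅, ∑ G, kq ρ a x G * Φ G := by
  rw [Finset.sum_comm]
  refine Finset.sum_congr rfl fun G _ => ?_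
  rw [card_SG_eq, Finset.mul_sum, Finset.sum_mul]
  refine Finset.sum_congr rfl fun x _ => ?_
  rw [kap_kq]

omit [DecidableEq V] [Fintype E] [DecidableEq E] in
lemma mem_GC {a : V → Fin (M + 1)} {G : Finset V} {v : V} : v ∈ GC s t a G ↔
    ∃ g ∈ G, (a g : ℕ) ≠ 0 ∧ Relation.ReflTransGen (st0 s t a) g v := by
  unfold GC
  simp

omit [DecidableEq V] [Fintype E] [DecidableEq E] in
lemma GC_mono {a a' : V → Fin (M + 1)} {G G' : Finset V} (h : a ≤ a') (hG : G ⊆ G') :
    GC s t a G ⊆ GC s t a' G' := by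
  intro v hv
  rw [mem_GC] at hv ⊢
  obtain ⟨g, hg, h1, h2⟩ := hv
  have hne : ∀ u, (a u : ℕ) ≠ 0 → (a' u : ℕ) ≠ 0 := fun u hu h0 => hu (by
    have := Fin.le_def.1 (h u)
    omega)
  exact ⟨g, hG hg, hne g h1, Relation.ReflTransGen.mono
    (fun x y hxy => ⟨hxy.1, hne _ hxy.2.1, hne _ hxy.2.2⟩) g v h2⟩

omit [DecidableEq V] [Fintype E] [DecidableEq E] in
lemma GC_ne {a : V → Fin (M + 1)} {G : Finset V} {v : V} (hv : v ∈ GC s t a G) :
    (a v : ℕ) ≠ 0 := by
  obtain ⟨g, _, h1, h2⟩ := mem_GC.1 hv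
  rcases Relation.ReflTransGen.cases_tail h2 with h3 | ⟨c, _, h3⟩
  · rw [h3]; exact h1
  · exact h3.2.2

omit [DecidableEq E] in
lemma sign_step {a : V → Fin (M + 1)} {x : V → Bool} (hx : x ∈ SG s t (CE s t a) ∅) {u v : V}
    (h : st0 s t a u v) : x u = x v := by
  obtain ⟨⟨e, he⟩, h1, h2⟩ := h
  rw [mem_SG] at hx
  rcases he with ⟨rfl, rfl⟩ | ⟨rfl, rfl⟩
  · exact hx.1 e (by simp only [CE, Finset.mem_filter, Finset.mem_univ, true_and]; exact ⟨h1, h2⟩)
  · exact (hx.1 e (by
      simp only [CE, Finset.mem_filter, Finset.mem_univ, true_and]; exact ⟨h2, h1⟩)).symm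

omit [DecidableEq E] in
lemma sign_GC {a : V → Fin (M + 1)} {x : V → Bool} (hx : x ∈ SG s t (CE s t a) ∅) {G : Finset V}
    (hG : ∀ g ∈ G, x g = true) {v : V} (hv : v ∈ GC s t a G) : x v = true := by
  obtain ⟨g, hg, _, h2⟩ := mem_GC.1 hv
  induction h2 with
  | refl => exact hG _ hg
  | @tail b c hb hbc ih =>
    rw [← sign_step hx hbc]
    exact ih (mem_GC.2 ⟨g, hg, ‹_›, hb⟩)

/-! ### lower bound: an arm of heights is an arm of the complement of the ghost components -/

variable {F : Finset V → Prop}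

omit [DecidableEq E] in
open Classical in
lemma arm_lower (hF : ∀ S T : Finset V, S ⊆ T → F S → F T) (hρ : ∀ v, 0 ≤ ρ v)
    {a : V → Fin (M + 1)} {x : V → Bool} (hx : x ∈ SG s t (CE s t a) ∅) :
    (if F (Finset.univ.filter fun v => hh a x v ≤ 0) then
      ∏ v, Real.exp (ρ v * (hh a x v : ℝ)) else 0) ≤
    ∑ G, kq ρ a x G * (if F (GC s t a G)ᶜ then 1 else 0) := by
  split_ifs with h
  · rw [← sum_kq]
    refine Finset.sum_le_sum fun G _ => ?_
    by_cases h0 : kq ρ a x G = 0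
    · rw [h0, zero_mul]
    · rw [if_pos, mul_one]
      have hG : ∀ g ∈ G, x g = true := by
        intro g hg
        by_contra hxg
        apply h0
        unfold kq
        refine Finset.prod_eq_zero (Finset.mem_univ g) ?_
        rw [if_pos hg, if_neg hxg]
      refine hF _ _ ?_ h
      intro v hv
      rw [Finset.mem_filter] at hv
      rw [Finset.mem_compl]
      intro hvG
      have h1 := sign_GC hx hG hvG
      have h2 := GC_ne hvG
      have h3 := hv.2
      unfold hh at h3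
      rw [if_pos h1] at h3
      omega
  · refine Finset.sum_nonneg fun G _ => mul_nonneg (kq_nonneg hρ _ _ _) ?_
    split_ifs <;> norm_num

/-! ### upper bound: the ghosts of `A` and `B` are in different components -/

omit [Fintype E] [DecidableEq E] in
/-- Harris' inequality for the sign assignments -/
lemma fkg_signs (C : Finset E) {f g : (V → Bool) → ℝ} (hf0 : ∀ x, 0 ≤ f x) (hg0 : ∀ x, 0 ≤ g x)
    (hf : Monotone f) (hg : Monotone g) :
    (∑ x ∈ SG s t C ∅, f x) * (∑ x ∈ SG s t C ∅, g x) ≤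
      ((SG s t C ∅).card : ℝ) * ∑ x ∈ SG s t C ∅, f x * g x := by
  have h := fkg f g (fun x => if x ∈ SG s t C ∅ then (1 : ℝ) else 0)
    (fun x => by
      simp only [Pi.zero_apply]
      split_ifs <;> norm_num) hf0 hg0 hf hg (by
    intro x y
    by_cases hx : x ∈ SG s t C ∅
    · by_cases hy : y ∈ SG s t C ∅
      · rw [if_pos hx, if_pos hy, if_pos, if_pos]
        · rw [mem_SG] at hx hy ⊢
          refine ⟨fun e he => ?_, by simp⟩
          rw [Pi.sup_apply, Pi.sup_apply, hx.1 e he, hy.1 e he]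
        · rw [mem_SG] at hx hy ⊢
          refine ⟨fun e he => ?_, by simp⟩
          rw [Pi.inf_apply, Pi.inf_apply, hx.1 e he, hy.1 e he]
      · rw [if_neg hy, mul_zero]
        split_ifs <;> norm_num
    · rw [if_neg hx, zero_mul]
      split_ifs <;> norm_num)
  have e : ∀ φ : (V → Bool) → ℝ, ∑ x, (if x ∈ SG s t C ∅ then (1 : ℝ) else 0) * φ x =
      ∑ x ∈ SG s t C ∅, φ x := by
    intro φ
    rw [← Finset.sum_filter_add_sum_filter_not Finset.univ (fun x => x ∈ SG s t C ∅)]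
    rw [Finset.sum_congr rfl (g := fun x => φ x) (fun x hx => by
      rw [if_pos (Finset.mem_filter.1 hx).2, one_mul])]
    rw [Finset.sum_eq_zero (s := Finset.univ.filter fun x => x ∉ SG s t C ∅) (fun x hx => by
      rw [if_neg (Finset.mem_filter.1 hx).2, zero_mul]), add_zero]
    exact Finset.sum_congr (by ext x; simp) fun _ _ => rfl
  rw [e, e, e] at h
  have e1 : ∑ x, (if x ∈ SG s t C ∅ then (1 : ℝ) else 0) = ((SG s t C ∅).card : ℝ) := by
    have := e fun _ => 1
    simp only [mul_one] at this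
    rw [this]
    simp
  rw [e1] at h
  exact h

omit [Fintype V] [Fintype E] [DecidableEq V] [DecidableEq E] in
lemma hh_not (a : V → Fin (M + 1)) (x : V → Bool) (v : V) :
    hh a (fun u => !(x u)) v = -hh a x v := by
  unfold hh
  by_cases h : x v = true
  · simp [h]
  · simp [h]

omit [Fintype V] [Fintype E] [DecidableEq V] [DecidableEq E] in
lemma hh_mono (a : V → Fin (M + 1)) (v : V) : Monotone fun x => hh a x v := by
  intro x y hxy
  have := hxy v
  simp only [hh]
  revert this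
  cases x v <;> cases y v <;> simp

omit [Fintype E] [DecidableEq E] in
lemma card_le_sum_exp (C : Finset E) (a : V → Fin (M + 1)) (γ : V → ℝ) :
    ((SG s t C ∅).card : ℝ) ≤ ∑ x ∈ SG s t C ∅, Real.exp (∑ v, γ v * (hh a x v : ℝ)) := by
  have h1 : ∑ x ∈ SG s t C ∅, Real.exp (∑ v, γ v * (hh a x v : ℝ)) =
      ∑ x ∈ SG s t C ∅, Real.exp (-∑ v, γ v * (hh a x v : ℝ)) := by
    refine Finset.sum_nbij' (fun x v => !(x v)) (fun x v => !(x v)) ?_ ?_ ?_ ?_ ?_
    · intro x hx
      rw [mem_SG] at hx ⊢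
      exact ⟨fun e he => by simp only [hx.1 e he], by simp⟩
    · intro x hx
      rw [mem_SG] at hx ⊢
      exact ⟨fun e he => by simp only [hx.1 e he], by simp⟩
    · intro x _
      funext v
      simp
    · intro x _
      funext v
      simp
    · intro x _
      congr 1
      rw [← Finset.sum_neg_distrib]
      refine Finset.sum_congr rfl fun v _ => ?_
      rw [hh_not]
      push_cast
      ring
  have h2 : 2 * ((SG s t C ∅).card : ℝ) ≤
      ∑ x ∈ SG s t C ∅, Real.exp (∑ v, γ v * (hh a x v : ℝ)) +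
      ∑ x ∈ SG s t C ∅, Real.exp (-∑ v, γ v * (hh a x v : ℝ)) := by
    rw [← Finset.sum_add_distrib]
    calc 2 * ((SG s t C ∅).card : ℝ) = ∑ x ∈ SG s t C ∅, (2 : ℝ) := by
          rw [Finset.sum_const, nsmul_eq_mul, mul_comm]
      _ ≤ _ := by
          refine Finset.sum_le_sum fun x _ => ?_
          set z := ∑ v, γ v * (hh a x v : ℝ)
          have := Real.add_one_le_exp z
          have := Real.add_one_le_exp (-z)
          linarith
  rw [← h1] at h2
  linarith

/-- reversal of the signs on `T` -/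
def fx (T : Finset V) (x : V → Bool) (v : V) : Bool := if v ∈ T then !(x v) else x v

omit [DecidableEq V] [Fintype E] [DecidableEq E] in
/-- `B` is closed under steps: the set joined to `B` -/
lemma GC_step {a : V → Fin (M + 1)} {G : Finset V} {u v : V} (hu : u ∈ GC s t a G)
    (h : st0 s t a u v) : v ∈ GC s t a G := by
  obtain ⟨g, hg, h1, h2⟩ := mem_GC.1 hu
  exact mem_GC.2 ⟨g, hg, h1, h2.tail h⟩

omit [DecidableEq E] in
lemma fx_mem {a : V → Fin (M + 1)} {B : Finset V} {x : V → Bool}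
    (hx : x ∈ SG s t (CE s t a) ∅) : fx (GC s t a B) x ∈ SG s t (CE s t a) ∅ := by
  rw [mem_SG] at hx ⊢
  refine ⟨fun e he => ?_, by simp⟩
  have he' : (a (s e) : ℕ) ≠ 0 ∧ (a (t e) : ℕ) ≠ 0 := by
    simpa only [CE, Finset.mem_filter, Finset.mem_univ, true_and] using he
  have h1 : s e ∈ GC s t a B ↔ t e ∈ GC s t a B :=
    ⟨fun h => GC_step h ⟨⟨e, Or.inl ⟨rfl, rfl⟩⟩, he'.1, he'.2⟩,
      fun h => GC_step h ⟨⟨e, Or.inr ⟨rfl, rfl⟩⟩, he'.2, he'.1⟩⟩
  unfold fx
  rw [hx.1 e he]
  by_cases h : s e ∈ GC s t a B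
  · rw [if_pos h, if_pos (h1.1 h)]
  · rw [if_neg h, if_neg (fun h' => h (h1.2 h'))]

omit [Fintype V] [Fintype E] [DecidableEq E] in
lemma fx_fx (T : Finset V) (x : V → Bool) : fx T (fx T x) = x := by
  funext v
  unfold fx
  split_ifs <;> simp

omit [Fintype V] [Fintype E] [DecidableEq E] in
lemma hh_fx (T : Finset V) (a : V → Fin (M + 1)) (x : V → Bool) (v : V) :
    hh a (fx T x) v = if v ∈ T then -hh a x v else hh a x v := by
  unfold hh fx
  split_ifs <;> simp_all

omit [DecidableEq E] in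
open Classical in
/-- the upper bound for fixed absolute values -/
theorem arm_upper {A B Q : Finset V} {ρA ρB γ : V → ℝ} (hA0 : ∀ v, 0 ≤ ρA v)
    (hB0 : ∀ v, 0 ≤ ρB v) (hγ0 : ∀ v, 0 ≤ γ v) (hA : ∀ v, v ∉ A → ρA v = 0)
    (hB : ∀ v, v ∉ B → ρB v = 0) (hγ : ∀ v, v ∉ B → γ v = 0)
    (hsep : ∀ T, F T → ∀ x ∈ A, ∀ y ∈ B, x ∉ T ∪ Q →
      ¬ Relation.ReflTransGen (adjS s t (T ∪ Q)) x y)
    {a : V → Fin (M + 1)} (hQ : ∀ v ∈ Q, (a v : ℕ) = 0) :
    ∑ x ∈ SG s t (CE s t a) ∅, ∑ G, kq (fun v => ρA v + ρB v) a x G *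
        (if F (GC s t a G)ᶜ then 1 else 0) ≤
      ∑ x ∈ SG s t (CE s t a) ∅, Real.exp (∑ v, (ρA v - ρB v - γ v) * (hh a x v : ℝ)) := by
  set T := GC s t a B with hT
  set R := A ∩ T with hR
  set ρ : V → ℝ := fun v => ρA v + ρB v with hρ
  have hρ0 : ∀ v, 0 ≤ ρ v := fun v => add_nonneg (hA0 v) (hB0 v)
  -- the ghosts avoid `R`
  have h1 : ∀ G, F (GC s t a G)ᶜ → ∀ v ∈ G, v ∉ R := by
    intro G hF v hv hvR
    rw [hR, Finset.mem_inter] at hvR
    obtain ⟨hvA, hvT⟩ := hvR
    have hv0 : (a v : ℕ) ≠ 0 := GC_ne hvT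
    obtain ⟨b, hb, hb0, hpath⟩ := mem_GC.1 hvT
    have hsym : Relation.ReflTransGen (st0 s t a) v b := by
      refine rt_symm ?_ hpath
      rintro p q ⟨⟨e, he⟩, h1, h2⟩
      exact ⟨⟨e, he.symm⟩, h2, h1⟩
    have hvGC : v ∈ GC s t a G := mem_GC.2 ⟨v, hv, hv0, Relation.ReflTransGen.refl⟩
    have hnot : ∀ u, u ∈ GC s t a G → u ∉ (GC s t a G)ᶜ ∪ Q := by
      intro u hu h
      rcases Finset.mem_union.1 h with h | h
      · exact (Finset.mem_compl.1 h) hu
      · exact GC_ne hu (hQ u h)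
    refine hsep _ hF v hvA b hb (hnot v hvGC) ?_
    have key : ∀ u, Relation.ReflTransGen (st0 s t a) v u → u ∈ GC s t a G ∧
        Relation.ReflTransGen (adjS s t ((GC s t a G)ᶜ ∪ Q)) v u := by
      intro u hu
      induction hu with
      | refl => exact ⟨hvGC, Relation.ReflTransGen.refl⟩
      | @tail p q hp hpq ih =>
        have hq := GC_step ih.1 hpq
        exact ⟨hq, ih.2.tail ⟨hnot p ih.1, hnot q hq, hpq.1⟩⟩
    exact (key b hsym).2
  have h2 : ∀ x, ∑ G, kq ρ a x G * (if F (GC s t a G)ᶜ then 1 else 0) ≤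
      ∏ v, (if v ∈ R then Real.exp (-(ρ v * (a v : ℕ))) else
        Real.exp (ρ v * (hh a x v : ℝ))) := by
    intro x
    rw [← sum_kq_restr]
    refine Finset.sum_le_sum fun G _ => ?_
    by_cases hF : F (GC s t a G)ᶜ
    · rw [if_pos hF, if_pos (h1 G hF), mul_one]
    · rw [if_neg hF, mul_zero]
      split_ifs
      · exact kq_nonneg hρ0 _ _ _
      · exact le_refl _
  refine (Finset.sum_le_sum fun x _ => h2 x).trans ?_
  -- Harris
  set f : (V → Bool) → ℝ := fun x => ∏ v, (if v ∈ R then Real.exp (-(ρ v * (a v : ℕ))) else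
        Real.exp (ρ v * (hh a x v : ℝ))) with hf
  set g : (V → Bool) → ℝ := fun x => Real.exp (∑ v, γ v * (hh a x v : ℝ)) with hg
  have hf0 : ∀ x, 0 ≤ f x := by
    intro x
    refine Finset.prod_nonneg fun v _ => ?_
    split_ifs <;> exact (Real.exp_pos _).le
  have hfm : Monotone f := by
    intro x y hxy
    refine Finset.prod_le_prod (fun v _ => by split_ifs <;> exact (Real.exp_pos _).le)
      fun v _ => ?_
    split_ifs
    · exact le_refl _
    · refine Real.exp_le_exp.2 (mul_le_mul_of_nonneg_left ?_ (hρ0 v))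
      exact_mod_cast hh_mono a v hxy
  have hgm : Monotone g := by
    intro x y hxy
    refine Real.exp_le_exp.2 (Finset.sum_le_sum fun v _ => ?_)
    refine mul_le_mul_of_nonneg_left ?_ (hγ0 v)
    exact_mod_cast hh_mono a v hxy
  have h3 : ∑ x ∈ SG s t (CE s t a) ∅, f x ≤ ∑ x ∈ SG s t (CE s t a) ∅, f x * g x := by
    have h4 := fkg_signs (s := s) (t := t) (CE s t a) hf0 (fun x => (Real.exp_pos _).le) hfm hgm
    have h5 := card_le_sum_exp (s := s) (t := t) (CE s t a) a γ
    have h6 : 0 < ((SG s t (CE s t a) ∅).card : ℝ) := by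
      rw [Nat.cast_pos, Finset.card_pos]
      exact ⟨fun _ => true, mem_SG.2 ⟨fun _ _ => rfl, fun _ _ => rfl⟩⟩
    have h7 : 0 ≤ ∑ x ∈ SG s t (CE s t a) ∅, f x := Finset.sum_nonneg fun x _ => hf0 x
    refine le_of_mul_le_mul_left ?_ h6
    calc ((SG s t (CE s t a) ∅).card : ℝ) * ∑ x ∈ SG s t (CE s t a) ∅, f x
        = (∑ x ∈ SG s t (CE s t a) ∅, f x) * ((SG s t (CE s t a) ∅).card : ℝ) := mul_comm _ _
      _ ≤ (∑ x ∈ SG s t (CE s t a) ∅, f x) * ∑ x ∈ SG s t (CE s t a) ∅, g x :=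
          mul_le_mul_of_nonneg_left h5 h7
      _ ≤ _ := h4
  refine h3.trans ?_
  -- reversal
  have h8 : ∑ x ∈ SG s t (CE s t a) ∅, f x * g x =
      ∑ x ∈ SG s t (CE s t a) ∅, f (fx T x) * g (fx T x) := by
    refine Finset.sum_nbij' (fx T) (fx T) (fun x hx => fx_mem hx) (fun x hx => fx_mem hx)
      (fun x _ => fx_fx T x) (fun x _ => fx_fx T x) ?_
    intro x _
    rw [fx_fx]
  rw [h8]
  refine Finset.sum_le_sum fun x _ => ?_
  simp only [hf, hg]
  rw [Real.exp_sum, Real.exp_sum, ← Finset.prod_mul_distrib]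
  refine Finset.prod_le_prod (fun v _ => ?_) fun v _ => ?_
  · split_ifs
    · exact (mul_pos (Real.exp_pos _) (Real.exp_pos _)).le
    · exact (mul_pos (Real.exp_pos _) (Real.exp_pos _)).le
  · have ha0 : (0 : ℝ) ≤ ((a v : ℕ) : ℝ) := Nat.cast_nonneg _
    have habs : |(hh a x v : ℝ)| ≤ ((a v : ℕ) : ℝ) := by
      unfold hh
      split_ifs
      · push_cast
        rw [abs_of_nonneg ha0]
      · push_cast
        rw [abs_neg, abs_of_nonneg ha0]
    obtain ⟨hl, hu⟩ := abs_le.1 habs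
    rw [hh_fx]
    by_cases hvT : v ∈ T
    · rw [if_pos hvT]
      by_cases hvA : v ∈ A
      · rw [if_pos (Finset.mem_inter.2 ⟨hvA, hvT⟩), ← Real.exp_add]
        refine Real.exp_le_exp.2 ?_
        push_cast
        simp only [hρ]
        nlinarith [hA0 v, hB0 v, mul_nonneg (hA0 v) (sub_nonneg.2 hu),
          mul_nonneg (hA0 v) (sub_nonneg.2 hl), mul_nonneg (hB0 v) (sub_nonneg.2 hu),
          mul_nonneg (hB0 v) (sub_nonneg.2 hl)]
      · rw [if_neg (fun h => hvA (Finset.mem_inter.1 h).1), ← Real.exp_add]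
        refine Real.exp_le_exp.2 ?_
        push_cast
        simp only [hρ]
        rw [hA v hvA]
        linarith
    · rw [if_neg hvT, if_neg (fun h => hvT (Finset.mem_inter.1 h).2), ← Real.exp_add]
      refine Real.exp_le_exp.2 ?_
      by_cases hvB : v ∈ B
      · have : (a v : ℕ) = 0 := by
          by_contra h0
          exact hvT (mem_GC.2 ⟨v, hvB, h0, Relation.ReflTransGen.refl⟩)
        have h0 : hh a x v = 0 := by
          unfold hh
          rw [this]
          simp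
        rw [h0]
        simp
      · simp only [hρ]
        rw [hB v hvB, hγ v hvB]
        linarith

end graph

end Vale.Agent.P159.T1.H619
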