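import Vale.Agent.P159.T1.H619.Arm

/-!
The arm bound for heights with values in `[-M, M]` and for all heights.
-/

namespace Vale.Agent.P159.T1.H619

open Vale.Agent.P159.T1.H254 (ker adjS)
open Vale.Agent.P159.T1.H773 (lin wt)

section graph

variable {V E : Type} [Fintype V] [DecidableEq V] [Fintype E] [DecidableEq E]

/-- the height of a pair (absolute value, sign) -/
def hg {M : ℕ} (p : Fin (M + 1) × Bool) : ℤ :=
  if p.2 then ((p.1 : ℕ) : ℤ) else -((p.1 : ℕ) : ℤ)

lemma sum_cc {M : ℕ} {n : ℤ} (hn : |n| ≤ M) :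
    ∑ p ∈ Finset.univ.filter (fun p : Fin (M + 1) × Bool => hg p = n), cc p.1 = 1 := by
  have hb := abs_le.1 hn
  have hk : n.natAbs < M + 1 := by omega
  rcases eq_or_ne n 0 with rfl | h0
  · have : Finset.univ.filter (fun p : Fin (M + 1) × Bool => hg p = 0) =
        {(0, true), (0, false)} := by
      ext ⟨i, b⟩
      rw [Finset.mem_filter]
      simp only [Finset.mem_univ, true_and, Finset.mem_insert,
        Finset.mem_singleton, hg, Prod.mk.injEq, Fin.ext_iff]
      cases b <;> simp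
    rw [this, Finset.sum_pair (by simp)]
    unfold cc
    simp
    norm_num
  · have : Finset.univ.filter (fun p : Fin (M + 1) × Bool => hg p = n) =
        {(⟨n.natAbs, hk⟩, decide (0 < n))} := by
      ext ⟨i, b⟩
      rw [Finset.mem_filter]
      simp only [Finset.mem_univ, true_and,
        Finset.mem_singleton, hg, Prod.mk.injEq, Fin.ext_iff]
      cases b
      · simp only [Bool.false_eq_true, if_false]
        constructor
        · intro h
          refine ⟨by omega, ?_⟩
          symm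
          rw [decide_eq_false_iff_not]
          omega
        · rintro ⟨h1, h2⟩
          have := of_decide_eq_false h2.symm
          omega
      · simp only [if_true]
        constructor
        · intro h
          refine ⟨by omega, ?_⟩
          symm
          rw [decide_eq_true_iff]
          omega
        · rintro ⟨h1, h2⟩
          have := of_decide_eq_true h2.symm
          omega
    rw [this, Finset.sum_singleton]
    unfold cc
    rw [if_neg (by simpa using h0)]

variable {s t : E → V} {β : E → ℝ} {ρ : V → ℝ} {P : Finset V} {M : ℕ}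

/-- sums over heights as sums over absolute values and signs -/
theorem polar (P : Finset V) (M : ℕ) (Φ : (V → ℤ) → ℝ) :
    ∑ h ∈ H773.box P M, Φ h = ∑ a : V → Fin (M + 1), ∑ x : V → Bool,
      (if ∀ v ∈ P, (a v : ℕ) = 0 then (1 : ℝ) else 0) * (∏ v, cc (a v)) * Φ (hh a x) := by
  classical
  have e1 : ∑ a : V → Fin (M + 1), ∑ x : V → Bool,
      (if ∀ v ∈ P, (a v : ℕ) = 0 then (1 : ℝ) else 0) * (∏ v, cc (a v)) * Φ (hh a x) =
      ∑ y : V → Fin (M + 1) × Bool,
        (if ∀ v ∈ P, hg (y v) = 0 then (1 : ℝ) else 0) * (∏ v, cc (y v).1) *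
          Φ (fun v => hg (y v)) := by
    rw [← Fintype.sum_prod_type', ← (Equiv.arrowProdEquivProdArrow V (fun _ => Fin (M + 1))
      (fun _ => Bool)).sum_comp]
    refine Finset.sum_congr rfl fun y _ => ?_
    have h1 : (∀ v ∈ P, ((y v).1 : ℕ) = 0) ↔ ∀ v ∈ P, hg (y v) = 0 := by
      refine forall₂_congr fun v _ => ?_
      unfold hg
      split_ifs <;> omega
    simp only [Equiv.arrowProdEquivProdArrow_apply]
    congr 2
    by_cases h : ∀ v ∈ P, hg (y v) = 0
    · rw [if_pos h, if_pos (h1.2 h)]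
    · rw [if_neg h, if_neg (fun h' => h (h1.1 h'))]
  rw [e1]
  have hmap : ∀ y ∈ (Finset.univ : Finset (V → Fin (M + 1) × Bool)),
      (fun v => hg (y v)) ∈ Fintype.piFinset fun _ : V => Finset.Icc (-(M : ℤ)) M := by
    intro y _
    rw [Fintype.mem_piFinset]
    intro v
    rw [Finset.mem_Icc]
    have := (y v).1.2
    unfold hg
    split_ifs <;> constructor <;> omega
  rw [← Finset.sum_fiberwise_of_maps_to hmap]
  unfold H773.box
  rw [Finset.sum_filter]
  refine Finset.sum_congr rfl fun h hh' => ?_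
  have h2 : ∀ y ∈ Finset.univ.filter (fun y : V → Fin (M + 1) × Bool =>
      (fun v => hg (y v)) = h), (if ∀ v ∈ P, hg (y v) = 0 then (1 : ℝ) else 0) *
        (∏ v, cc (y v).1) * Φ (fun v => hg (y v)) =
      (if ∀ v ∈ P, h v = 0 then Φ h else 0) * ∏ v, cc (y v).1 := by
    intro y hy
    obtain rfl := (Finset.mem_filter.1 hy).2
    split_ifs <;> ring
  rw [Finset.sum_congr rfl h2, ← Finset.mul_sum]
  have h3 : Finset.univ.filter (fun y : V → Fin (M + 1) × Bool => (fun v => hg (y v)) = h) =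
      Fintype.piFinset fun v => Finset.univ.filter fun p : Fin (M + 1) × Bool => hg p = h v := by
    ext y
    simp only [Finset.mem_filter, Finset.mem_univ, true_and, Fintype.mem_piFinset, funext_iff]
  rw [h3, ← Finset.prod_univ_sum (fun v => Finset.univ.filter
    fun p : Fin (M + 1) × Bool => hg p = h v) (fun _ p => cc p.1)]
  rw [Finset.prod_eq_one, mul_one]
  intro v _
  refine sum_cc ?_
  rw [Fintype.mem_piFinset] at hh'
  have := Finset.mem_Icc.1 (hh' v)
  exact abs_le.2 this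

omit [DecidableEq E] in
/-- the kernels in terms of absolute values and signs -/
lemma prod_ker_hh (a : V → Fin (M + 1)) (x : V → Bool) :
    ∏ e, ker 1 (β e) (hh a x (t e) - hh a x (s e)) =
      if x ∈ SG s t (CE s t a) ∅ then
        ∏ e, ker 1 (β e) (((a (t e) : ℕ) : ℤ) - ((a (s e) : ℕ) : ℤ)) else 0 := by
  split_ifs with h
  · refine Finset.prod_congr rfl fun e _ => ?_
    by_cases hs0 : (a (s e) : ℕ) = 0
    · unfold hh
      rw [hs0]
      cases x (t e) <;> simp [ker_neg]
    · by_cases ht0 : (a (t e) : ℕ) = 0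
      · unfold hh
        rw [ht0]
        by_cases hx : x (s e) = true
        · simp [hx]
        · simp [hx, ker_neg]
      · have he := (mem_SG.1 h).1 e (by
          simp only [CE, Finset.mem_filter, Finset.mem_univ, true_and]; exact ⟨hs0, ht0⟩)
        unfold hh
        rw [he]
        by_cases hx : x (t e) = true
        · simp [hx]
        · simp only [hx, Bool.false_eq_true, if_false]
          rw [← ker_neg]
          congr 1
          ring
  · rw [mem_SG] at h
    have h' : ∃ e ∈ CE s t a, x (s e) ≠ x (t e) := by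
      by_contra hcon
      push Not at hcon
      exact h ⟨hcon, by simp⟩
    obtain ⟨e, he, hx⟩ := h'
    refine Finset.prod_eq_zero (Finset.mem_univ e) ?_
    simp only [CE, Finset.mem_filter, Finset.mem_univ, true_and] at he
    refine ker_big ?_
    unfold hh
    revert hx
    cases x (s e) <;> cases x (t e) <;> simp <;> rw [lt_abs] <;> omega

/-- the part of the weight which depends only on the absolute values -/
noncomputable def aw (s t : E → V) (β : E → ℝ) (P : Finset V) {M : ℕ} (a : V → Fin (M + 1)) : ℝ :=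
  (if ∀ v ∈ P, (a v : ℕ) = 0 then 1 else 0) *
    (∏ e, ker 1 (β e) (((a (t e) : ℕ) : ℤ) - ((a (s e) : ℕ) : ℤ))) * (∏ v, cc (a v))

omit [DecidableEq E] in
lemma aw_nonneg (hβ : ∀ e, 0 ≤ β e) (a : V → Fin (M + 1)) : 0 ≤ aw s t β P a := by
  unfold aw
  refine mul_nonneg (mul_nonneg ?_ ?_) ?_
  · split_ifs <;> norm_num
  · exact Finset.prod_nonneg fun e _ => ker_nonneg (hβ e) _
  · exact Finset.prod_nonneg fun v _ => (cc_pos _).le

omit [DecidableEq E] in
lemma polarW (Φ : (V → ℤ) → ℝ) :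
    ∑ h ∈ H773.box P M, (∏ e, ker 1 (β e) (h (t e) - h (s e))) * Φ h =
      ∑ a : V → Fin (M + 1), aw s t β P a * ∑ x ∈ SG s t (CE s t a) ∅, Φ (hh a x) := by
  classical
  rw [polar]
  refine Finset.sum_congr rfl fun a _ => ?_
  rw [Finset.mul_sum, ← Finset.sum_subset (Finset.subset_univ (SG s t (CE s t a) ∅))]
  · refine Finset.sum_congr rfl fun x hx => ?_
    rw [prod_ker_hh, if_pos hx]
    unfold aw
    ring
  · intro x _ hx
    rw [prod_ker_hh, if_neg hx]
    ring

omit [DecidableEq E] in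
lemma sum_mu (Ψ : (V → Fin (M + 1)) → Finset V → ℝ) :
    ∑ z : (V → Fin (M + 1)) × Finset V, mu s t β ρ P z.1 z.2 * Ψ z.1 z.2 =
      ∑ a, aw s t β P a * ∑ x ∈ SG s t (CE s t a) ∅, ∑ G, kq ρ a x G * Ψ a G := by
  classical
  rw [Fintype.sum_prod_type]
  refine Finset.sum_congr rfl fun a _ => ?_
  rw [← expand, Finset.mul_sum]
  refine Finset.sum_congr rfl fun G _ => ?_
  simp only [mu, aw]
  ring

omit [DecidableEq E] in
lemma sum_mu_one :
    ∑ z : (V → Fin (M + 1)) × Finset V, mu s t β ρ P z.1 z.2 =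
      ∑ h ∈ H773.box P M, (∏ e, ker 1 (β e) (h (t e) - h (s e))) * Real.exp (lin ρ h) := by
  have h1 := sum_mu (s := s) (t := t) (β := β) (ρ := ρ) (P := P) (M := M) (fun _ _ => 1)
  simp only [mul_one] at h1
  rw [h1, polarW]
  refine Finset.sum_congr rfl fun a _ => ?_
  congr 1
  refine Finset.sum_congr rfl fun x _ => ?_
  rw [sum_kq, ← Real.exp_sum]
  rfl

variable {F : Finset V → Prop}

open Classical in
/-- **Arm bound**, no deleted vertices, heights with values in `[-M, M]`. -/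
theorem arm_core (hβ : ∀ e, 0 ≤ β e) (hβ2 : ∀ e, 2 * β e ^ 2 ≤ 1)
    (hF : ∀ S T : Finset V, S ⊆ T → F S → F T) {A B P Q : Finset V} {ρA ρB γ : V → ℝ}
    (hA0 : ∀ v, 0 ≤ ρA v) (hB0 : ∀ v, 0 ≤ ρB v) (hγ0 : ∀ v, 0 ≤ γ v)
    (hA : ∀ v, v ∉ A → ρA v = 0) (hB : ∀ v, v ∉ B → ρB v = 0) (hγ : ∀ v, v ∉ B → γ v = 0)
    (hsep : ∀ T, F T → ∀ x ∈ A, ∀ y ∈ B, x ∉ T ∪ Q →
      ¬ Relation.ReflTransGen (adjS s t (T ∪ Q)) x y) (M : ℕ) :
    (∑ h ∈ H773.box P M, if F (Finset.univ.filter fun v => h v ≤ 0) then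
        (∏ e, ker 1 (β e) (h (t e) - h (s e))) * Real.exp (lin (fun v => ρA v + ρB v) h) else 0) *
      (∑ h ∈ H773.box (P ∪ Q) M,
        (∏ e, ker 1 (β e) (h (t e) - h (s e))) * Real.exp (lin (fun v => ρA v + ρB v) h)) ≤
    (∑ h ∈ H773.box P M,
        (∏ e, ker 1 (β e) (h (t e) - h (s e))) * Real.exp (lin (fun v => ρA v + ρB v) h)) *
      (∑ h ∈ H773.box (P ∪ Q) M,
        (∏ e, ker 1 (β e) (h (t e) - h (s e))) *
          Real.exp (lin (fun v => ρA v - ρB v - γ v) h)) := by
  set ρ : V → ℝ := fun v => ρA v + ρB v with hρ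
  have hρ0 : ∀ v, 0 ≤ ρ v := fun v => add_nonneg (hA0 v) (hB0 v)
  set Ev : (V → Fin (M + 1)) → Finset V → ℝ := fun a G => if F (GC s t a G)ᶜ then 1 else 0
    with hEv
  have hEv0 : ∀ a G, 0 ≤ Ev a G := by
    intro a G
    simp only [hEv]
    split_ifs <;> norm_num
  -- the arm
  have h1 : (∑ h ∈ H773.box P M, if F (Finset.univ.filter fun v => h v ≤ 0) then
        (∏ e, ker 1 (β e) (h (t e) - h (s e))) * Real.exp (lin ρ h) else 0) ≤
      ∑ z : (V → Fin (M + 1)) × Finset V, mu s t β ρ P z.1 z.2 * Ev z.1 z.2 := by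
    rw [sum_mu]
    have e1 : (∑ h ∈ H773.box P M, if F (Finset.univ.filter fun v => h v ≤ 0) then
        (∏ e, ker 1 (β e) (h (t e) - h (s e))) * Real.exp (lin ρ h) else 0) =
        ∑ h ∈ H773.box P M, (∏ e, ker 1 (β e) (h (t e) - h (s e))) *
          (if F (Finset.univ.filter fun v => h v ≤ 0) then Real.exp (lin ρ h) else 0) := by
      refine Finset.sum_congr rfl fun h _ => ?_
      split_ifs
      · rfl
      · rw [mul_zero]
    rw [e1, polarW]
    refine Finset.sum_le_sum fun a _ => mul_le_mul_of_nonneg_left ?_ (aw_nonneg hβ a)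
    refine Finset.sum_le_sum fun x hx => ?_
    refine le_trans (le_of_eq ?_) (arm_lower hF hρ0 hx)
    split_ifs
    · rw [← Real.exp_sum]
      rfl
    · rfl
  -- the pinned sum with the event
  have h2 : ∑ z : (V → Fin (M + 1)) × Finset V, mu s t β ρ (P ∪ Q) z.1 z.2 * Ev z.1 z.2 ≤
      ∑ h ∈ H773.box (P ∪ Q) M, (∏ e, ker 1 (β e) (h (t e) - h (s e))) *
        Real.exp (lin (fun v => ρA v - ρB v - γ v) h) := by
    rw [sum_mu, polarW]
    refine Finset.sum_le_sum fun a _ => ?_
    by_cases hPQ : ∀ v ∈ P ∪ Q, (a v : ℕ) = 0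
    · refine mul_le_mul_of_nonneg_left ?_ (aw_nonneg hβ a)
      exact arm_upper hA0 hB0 hγ0 hA hB hγ hsep
        (fun v hv => hPQ v (Finset.mem_union_right _ hv))
    · have : aw s t β (P ∪ Q) a = 0 := by
        unfold aw
        rw [if_neg hPQ, zero_mul, zero_mul]
      rw [this, zero_mul, zero_mul]
  have h3 : 0 ≤ ∑ z : (V → Fin (M + 1)) × Finset V, mu s t β ρ P z.1 z.2 :=
    Finset.sum_nonneg fun z _ => mu_nonneg hβ hρ0 _ _
  have h4 : 0 ≤ ∑ z : (V → Fin (M + 1)) × Finset V, mu s t β ρ (P ∪ Q) z.1 z.2 :=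
    Finset.sum_nonneg fun z _ => mu_nonneg hβ hρ0 _ _
  rw [← sum_mu_one (P := P ∪ Q), ← sum_mu_one (P := P)]
  refine (mul_le_mul_of_nonneg_right h1 h4).trans ?_
  refine le_trans ?_ (mul_le_mul_of_nonneg_left h2 h3)
  -- four functions
  have h5 := four_functions_theorem_univ (α := (V → Fin (M + 1)) × Finset V) (β := ℝ)
    (fun z => mu s t β ρ P z.1 z.2 * Ev z.1 z.2) (fun z => mu s t β ρ (P ∪ Q) z.1 z.2)
    (fun z => mu s t β ρ (P ∪ Q) z.1 z.2 * Ev z.1 z.2) (fun z => mu s t β ρ P z.1 z.2)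
    (fun z => mul_nonneg (mu_nonneg hβ hρ0 _ _) (hEv0 _ _)) (fun z => mu_nonneg hβ hρ0 _ _)
    (fun z => mul_nonneg (mu_nonneg hβ hρ0 _ _) (hEv0 _ _)) (fun z => mu_nonneg hβ hρ0 _ _)
    (by
      intro z z'
      simp only [Prod.fst_inf, Prod.snd_inf, Prod.fst_sup, Prod.snd_sup, Finset.inf_eq_inter,
        Finset.sup_eq_union]
      have hm := mu_latt (s := s) (t := t) (P := P) hβ hβ2 hρ0 z.1 z'.1 z.2 z'.2
      -- the event is decreasing
      have hev : Ev z.1 z.2 ≤ Ev (z.1 ⊓ z'.1) (z.2 ∩ z'.2) := by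
        simp only [hEv]
        split_ifs with g1 g2
        · exact le_refl _
        · exact absurd (hF _ _ (Finset.compl_subset_compl.2
            (GC_mono inf_le_left Finset.inter_subset_left)) g1) g2
        · norm_num
        · exact le_refl _
      by_cases hQ : ∀ v ∈ P ∪ Q, (z'.1 v : ℕ) = 0
      · have e1 : mu s t β ρ (P ∪ Q) z'.1 z'.2 = mu s t β ρ P z'.1 z'.2 := by
          unfold mu
          rw [if_pos hQ, if_pos (fun v hv => hQ v (Finset.mem_union_left _ hv))]
        have hQ' : ∀ v ∈ P ∪ Q, ((z.1 ⊓ z'.1) v : ℕ) = 0 := by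
          intro v hv
          rw [Pi.inf_apply, val_inf, hQ v hv]
          simp
        have e2 : mu s t β ρ (P ∪ Q) (z.1 ⊓ z'.1) (z.2 ∩ z'.2) =
            mu s t β ρ P (z.1 ⊓ z'.1) (z.2 ∩ z'.2) := by
          unfold mu
          rw [if_pos hQ', if_pos (fun v hv => hQ' v (Finset.mem_union_left _ hv))]
        rw [e1, e2]
        calc mu s t β ρ P z.1 z.2 * Ev z.1 z.2 * mu s t β ρ P z'.1 z'.2
            = (mu s t β ρ P z.1 z.2 * mu s t β ρ P z'.1 z'.2) * Ev z.1 z.2 := by ring
          _ ≤ (mu s t β ρ P (z.1 ⊓ z'.1) (z.2 ∩ z'.2) *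
                mu s t β ρ P (z.1 ⊔ z'.1) (z.2 ∪ z'.2)) *
                Ev (z.1 ⊓ z'.1) (z.2 ∩ z'.2) :=
              mul_le_mul hm hev (hEv0 _ _)
                (mul_nonneg (mu_nonneg hβ hρ0 _ _) (mu_nonneg hβ hρ0 _ _))
          _ = _ := by ring
      · have e1 : mu s t β ρ (P ∪ Q) z'.1 z'.2 = 0 := by
          unfold mu
          rw [if_neg hQ]
          simp
        rw [e1, mul_zero]
        exact mul_nonneg (mul_nonneg (mu_nonneg hβ hρ0 _ _) (hEv0 _ _)) (mu_nonneg hβ hρ0 _ _))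
  refine h5.trans (le_of_eq ?_)
  rw [mul_comm]

end graph

end Vale.Agent.P159.T1.H619
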