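import Vale.Agent.P159.T1.H897.LogC
import Vale.Agent.P159.T1.H934.Cosh
import Vale.Agent.P159.T1.H934.Markov
import Vale.Agent.P159.T1.H532.Bes

/-!
The kernels `kerP (J / (2 m)) m` are dominated by `wI J` and converge to it.
-/

open Filter Topology

namespace Vale.Agent.P159.T1.H619

open Vale.Agent.P159.T1.H254 (ker kerP)
open Vale.Agent.P159.H353 (wI wI_nonneg wI_neg summable_wI)

lemma ker_le_wI {β : ℝ} (hβ : 0 ≤ β) (n : ℤ) : ker 1 β n ≤ wI (2 * β) n := by
  have h2 : 0 ≤ 2 * β := by linarith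
  have hw0 := wI_nonneg h2
  have key : ∀ m k : ℤ, H897.poi β (m - k) * H897.poi β (-k) ≤ wI (2 * β) m := by
    intro m k
    rw [H897.wI_eq_pcv h2, show 2 * β / 2 = β by ring]
    exact (H897.summable_poi_sub hβ m).le_tsum k
      (fun j _ => mul_nonneg (H897.poi_nonneg hβ _) (H897.poi_nonneg hβ _))
  have p0 : H897.poi β 0 = 1 := by
    have := H897.poi_nat β 0
    simpa using this
  have p1 : H897.poi β 1 = β := by
    have := H897.poi_nat β 1
    simpa using this
  have h1 : β ≤ wI (2 * β) 1 := by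
    have := key 1 0
    simpa [p0, p1] using this
  unfold H254.ker
  split_ifs with h h'
  · subst h
    have := key 0 0
    simpa [p0] using this
  · rcases (abs_eq (by norm_num : (0 : ℤ) ≤ 1)).1 h' with rfl | rfl
    · exact h1
    · rw [wI_neg]
      exact h1
  · exact hw0 n

lemma kerP_le_wI {β : ℝ} (hβ : 0 ≤ β) (m : ℕ) (n : ℤ) : kerP β m n ≤ wI (2 * β * m) n := by
  induction m generalizing n with
  | zero =>
    simp only [kerP, Nat.cast_zero, mul_zero]
    rw [H934.wI_zero_left]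
  | succ m ih =>
    have h2 : 0 ≤ 2 * β := by linarith
    have h3 : 0 ≤ 2 * β * m := mul_nonneg h2 (Nat.cast_nonneg _)
    rw [H897.kerP_succ_conv]
    have hc := H532.wI_conv h2 h3 n
    have e1 : 2 * β + 2 * β * m = 2 * β * ((m + 1 : ℕ) : ℝ) := by push_cast; ring
    rw [e1] at hc
    rw [← hc.tsum_eq]
    refine Summable.tsum_le_tsum (fun k => ?_) ?_ hc.summable
    · rw [mul_comm]
      exact mul_le_mul (ker_le_wI hβ k) (ih _) (H897.kerP_nonneg hβ _ _) (wI_nonneg h2 _)
    · refine summable_of_ne_finset_zero (s := Finset.Icc (-1 : ℤ) 1) fun k hk => ?_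
      rw [Finset.mem_Icc] at hk
      have h1 : (1 : ℤ) < |k| := by rw [lt_abs]; omega
      unfold H254.ker
      rw [if_neg (by omega), if_neg h1.ne', mul_zero]

lemma tsum_kerP (β : ℝ) (m : ℕ) : ∑' n, kerP β m n = (1 + 2 * β) ^ m := by
  induction m with
  | zero =>
    rw [tsum_eq_single 0]
    · simp [kerP]
    · intro n hn
      simp [kerP, hn]
  | succ m ih =>
    have hs := H897.summable_kerP β m
    have hs1 : Summable fun n : ℤ => kerP β m (n - 1) :=
      ((Equiv.subRight (1 : ℤ)).summable_iff (f := kerP β m)).2 hs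
    have hs2 : Summable fun n : ℤ => kerP β m (n + 1) :=
      ((Equiv.addRight (1 : ℤ)).summable_iff (f := kerP β m)).2 hs
    have e1 : ∑' n : ℤ, kerP β m (n - 1) = ∑' n, kerP β m n :=
      (Equiv.subRight (1 : ℤ)).tsum_eq (kerP β m)
    have e2 : ∑' n : ℤ, kerP β m (n + 1) = ∑' n, kerP β m n :=
      (Equiv.addRight (1 : ℤ)).tsum_eq (kerP β m)
    simp only [kerP]
    rw [hs.tsum_add ((hs1.add hs2).mul_left β), tsum_mul_left, hs1.tsum_add hs2, e1, e2, ih]
    ring

lemma tsum_wI {J : ℝ} (hJ : 0 ≤ J) : ∑' n, wI J n = Real.exp J := by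
  have h := (H934.wI_sum_z hJ (z := 1) (by simp)).2
  have e1 : ∀ n : ℤ, (wI J n : ℂ) * (1 : ℂ) ^ n = ((wI J n : ℝ) : ℂ) := fun n => by
    rw [one_zpow, mul_one]
  rw [tsum_congr e1, ← Complex.ofReal_tsum] at h
  have e2 : Complex.exp (J * ((1 + 1⁻¹) / 2)) = ((Real.exp J : ℝ) : ℂ) := by
    rw [Complex.ofReal_exp]
    congr 1
    norm_num
  rw [e2] at h
  exact_mod_cast h

theorem kerP_le {J : ℝ} (hJ : 0 ≤ J) {m : ℕ} (hm : 0 < m) (n : ℤ) :
    kerP (J / (2 * m)) m n ≤ wI J n := by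
  have hm' : (0 : ℝ) < m := Nat.cast_pos.2 hm
  have h := kerP_le_wI (β := J / (2 * m)) (by positivity) m n
  have e : 2 * (J / (2 * m)) * m = J := by field_simp
  rwa [e] at h

/-- convergence of the kernels -/
theorem kerP_tendsto {J : ℝ} (hJ : 0 ≤ J) (n : ℤ) :
    Tendsto (fun m : ℕ => kerP (J / (2 * m)) m n) atTop (𝓝 (wI J n)) := by
  have h1 : Tendsto (fun m : ℕ => wI J n - (Real.exp J - (1 + J / m) ^ m)) atTop
      (𝓝 (wI J n - (Real.exp J - Real.exp J))) :=
    tendsto_const_nhds.sub (tendsto_const_nhds.sub (Real.tendsto_one_add_div_pow_exp J))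
  rw [sub_self, sub_zero] at h1
  refine tendsto_of_tendsto_of_tendsto_of_le_of_le' h1 tendsto_const_nhds ?_ ?_
  · filter_upwards [eventually_gt_atTop 0] with m hm
    have hm' : (0 : ℝ) < m := Nat.cast_pos.2 hm
    have hs1 := summable_wI hJ
    have hs2 := H897.summable_kerP (J / (2 * m)) m
    have h2 : wI J n - kerP (J / (2 * m)) m n ≤
        ∑' k, (wI J k - kerP (J / (2 * m)) m k) :=
      (hs1.sub hs2).le_tsum n fun j _ => sub_nonneg.2 (kerP_le hJ hm j)
    rw [hs1.tsum_sub hs2, tsum_wI hJ, tsum_kerP] at h2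
    have e : 1 + 2 * (J / (2 * m)) = 1 + J / m := by field_simp
    rw [e] at h2
    linarith
  · filter_upwards [eventually_gt_atTop 0] with m hm
    exact kerP_le hJ hm n

end Vale.Agent.P159.T1.H619
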