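import Vale.Agent.P159.T1.H619.ArmP
import Vale.Agent.P159.T1.H619.KerLim

/-!
The arm bound for the weights `wI` (all heights, coarse arms).
-/

open Filter Topology

namespace Vale.Agent.P159.T1.H619

open Vale.Agent.P159.T1.H254 (kerP adjS)
open Vale.Agent.P159.T1.H897 (Wk ex)
open Vale.Agent.P159.H353 (wI wI_nonneg wI_neg summable_wI)

section

variable {V E : Type} [Fintype V] [DecidableEq V] [Fintype E] [DecidableEq E] {s t : E → V}
  {P : Finset V}

omit [Fintype V] [DecidableEq V] [DecidableEq E] in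
/-- the heights are bounded by the gradients -/
lemma exists_path (hconn : ∀ v, ∃ p ∈ P, Relation.ReflTransGen (adjS s t ∅) p v) (v : V) :
    ∃ K : ℕ, ∀ h : V → ℤ, (∀ v ∈ P, h v = 0) → (h v).natAbs ≤
      K * ∑ e, (h (t e) - h (s e)).natAbs := by
  obtain ⟨p, hp, hpv⟩ := hconn v
  induction hpv with
  | refl => exact ⟨0, fun h hh => by rw [hh p hp]; simp⟩
  | @tail b c _ hbc ih =>
    obtain ⟨K, hK⟩ := ih
    obtain ⟨_, _, e, he⟩ := hbc
    refine ⟨K + 1, fun h hh => ?_⟩
    have h1 := hK h hh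
    have h2 : (h (t e) - h (s e)).natAbs ≤ ∑ e, (h (t e) - h (s e)).natAbs :=
      Finset.single_le_sum (f := fun e => (h (t e) - h (s e)).natAbs)
        (fun _ _ => Nat.zero_le _) (Finset.mem_univ e)
    rw [add_mul, one_mul]
    rcases he with ⟨rfl, rfl⟩ | ⟨rfl, rfl⟩ <;> omega

lemma exists_K (hconn : ∀ v, ∃ p ∈ P, Relation.ReflTransGen (adjS s t ∅) p v) :
    ∃ K : ℕ, ∀ (v : V) (h : V → ℤ), (∀ v ∈ P, h v = 0) → (h v).natAbs ≤
      K * ∑ e, (h (t e) - h (s e)).natAbs := by
  choose K hK using exists_path (s := s) (t := t) hconn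
  refine ⟨∑ v, K v, fun v h hh => (hK v h hh).trans (Nat.mul_le_mul_right _ ?_)⟩
  exact Finset.single_le_sum (f := K) (fun _ _ => Nat.zero_le _) (Finset.mem_univ v)

lemma grad_inj (hconn : ∀ v, ∃ p ∈ P, Relation.ReflTransGen (adjS s t ∅) p v) :
    Function.Injective fun (h : {h : V → ℤ // ∀ v ∈ P, h v = 0}) (e : E) =>
      h.1 (t e) - h.1 (s e) := by
  obtain ⟨K, hK⟩ := exists_K (s := s) (t := t) hconn
  intro h g hg
  apply Subtype.ext
  funext v
  have h1 := hK v (h.1 - g.1) (fun u hu => by rw [Pi.sub_apply, h.2 u hu, g.2 u hu, sub_self])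
  have h2 : ∑ e, ((h.1 - g.1) (t e) - (h.1 - g.1) (s e)).natAbs = 0 := by
    refine Finset.sum_eq_zero fun e _ => ?_
    have := congrFun hg e
    simp only [Pi.sub_apply] at this ⊢
    rw [Int.natAbs_eq_zero]
    linarith
  rw [h2, mul_zero] at h1
  have h3 : ((h.1 - g.1) v).natAbs = 0 := by omega
  rw [Int.natAbs_eq_zero, Pi.sub_apply] at h3
  linarith

open Classical in
/-- summability of the tilted weights -/
theorem summable_tilt (hconn : ∀ v, ∃ p ∈ P, Relation.ReflTransGen (adjS s t ∅) p v)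
    {J : E → ℝ} (hJ : ∀ e, 0 ≤ J e) (σ : V → ℝ) :
    Summable fun h : V → ℤ => if ∀ v ∈ P, h v = 0 then
      Wk s t (fun e => wI (J e)) h * ex σ h else 0 := by
  obtain ⟨K, hK⟩ := exists_K (s := s) (t := t) hconn
  set r : ℝ := Real.exp ((∑ v, |σ v|) * K) with hr
  have hr1 : 1 ≤ r := Real.one_le_exp (mul_nonneg (Finset.sum_nonneg fun v _ => abs_nonneg _)
    (Nat.cast_nonneg _))
  have h1 := (H934.prod_real (a := fun (e : E) (n : ℤ) => wI (J e) n * r ^ n.natAbs)
    (fun e => H934.summable_wI_w (hJ e) hr1)).1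
  have h2 := h1.comp_injective (grad_inj (s := s) (t := t) hconn)
  have h3 : Summable fun h : {h : V → ℤ // ∀ v ∈ P, h v = 0} =>
      Wk s t (fun e => wI (J e)) h.1 * ex σ h.1 := by
    refine Summable.of_nonneg_of_le (fun h => mul_nonneg (Finset.prod_nonneg fun e _ =>
      wI_nonneg (hJ e) _) (Real.exp_pos _).le) (fun h => ?_) h2
    simp only [Function.comp_apply]
    rw [Finset.prod_mul_distrib, abs_mul]
    refine mul_le_mul (le_abs_self _) ?_ (Real.exp_pos _).le (abs_nonneg _)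
    rw [abs_of_nonneg (Finset.prod_nonneg fun e _ => pow_nonneg (by linarith) _),
      Finset.prod_pow_eq_pow_sum]
    set S := ∑ e, (h.1 (t e) - h.1 (s e)).natAbs with hS
    rw [hr, ← Real.exp_nat_mul]
    refine Real.exp_le_exp.2 ?_
    calc ∑ v, σ v * (h.1 v : ℝ) ≤ ∑ v, |σ v| * (K * S : ℕ) := by
          refine Finset.sum_le_sum fun v _ => ?_
          have h4 : |(h.1 v : ℝ)| ≤ ((K * S : ℕ) : ℝ) := by
            have h5 := hK v h.1 h.2
            rw [← Int.cast_abs, Int.abs_eq_natAbs]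
            exact_mod_cast h5
          calc σ v * (h.1 v : ℝ) ≤ |σ v * (h.1 v : ℝ)| := le_abs_self _
            _ = |σ v| * |(h.1 v : ℝ)| := abs_mul _ _
            _ ≤ _ := mul_le_mul_of_nonneg_left h4 (abs_nonneg _)
      _ = S * ((∑ v, |σ v|) * K) := by
          rw [← Finset.sum_mul]
          push_cast
          ring
  have h4 := (summable_subtype_iff_indicator (f := fun h : V → ℤ =>
    Wk s t (fun e => wI (J e)) h * ex σ h) (s := {h | ∀ v ∈ P, h v = 0})).1 h3
  refine h4.congr fun h => ?_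
  rw [Set.indicator_apply]
  rfl

/-- convergence of the sums over heights -/
theorem TS_tendsto (hconn : ∀ v, ∃ p ∈ P, Relation.ReflTransGen (adjS s t ∅) p v)
    {J : E → ℝ} (hJ : ∀ e, 0 ≤ J e) {c : (V → ℤ) → Prop} (hc : ∀ h, c h → ∀ v ∈ P, h v = 0)
    (σ : V → ℝ) :
    Tendsto (fun m : ℕ => TS s t (fun e => kerP (J e / (2 * m)) m) c σ) atTop
      (𝓝 (TS s t (fun e => wI (J e)) c σ)) := by
  classical
  unfold TS
  refine tendsto_tsum_of_dominated_convergence (summable_tilt hconn hJ σ) (fun h => ?_) ?_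
  · by_cases h1 : c h
    · simp only [h1, if_true]
      refine Tendsto.mul_const _ ?_
      exact tendsto_finset_prod _ fun e _ => kerP_tendsto (hJ e) _
    · simp only [h1, if_false]
      exact tendsto_const_nhds
  · filter_upwards [eventually_gt_atTop 0] with m hm h
    have hb : ∀ e, 0 ≤ J e / (2 * (m : ℝ)) := fun e => div_nonneg (hJ e) (by positivity)
    by_cases h1 : c h
    · have h0 : 0 ≤ Wk s t (fun e => kerP (J e / (2 * m)) m) h * ex σ h := mul_nonneg
        (Finset.prod_nonneg fun e _ => H897.kerP_nonneg (hb e) _ _) (Real.exp_pos _).le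
      rw [if_pos h1, if_pos (hc h h1), Real.norm_eq_abs, abs_of_nonneg h0]
      refine mul_le_mul_of_nonneg_right ?_ (Real.exp_pos _).le
      exact Finset.prod_le_prod (fun e _ => H897.kerP_nonneg (hb e) _ _)
        fun e _ => kerP_le (hJ e) hm _
    · rw [if_neg h1, norm_zero]
      split_ifs
      · exact mul_nonneg (Finset.prod_nonneg fun e _ => wI_nonneg (hJ e) _) (Real.exp_pos _).le
      · exact le_refl _

/-- **Arm bound** for the heights of the planar rotator model. -/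
theorem arm_wI {J : E → ℝ} (hJ : ∀ e, 0 ≤ J e) : ArmSt s t fun e => wI (J e) := by
  intro F A B P Q ρA ρB γ H
  have hcQ : ∀ v, ∃ p ∈ P ∪ Q, Relation.ReflTransGen (adjS s t ∅) p v := fun v => by
    obtain ⟨p, hp, h⟩ := H.conn v
    exact ⟨p, Finset.mem_union_left _ hp, h⟩
  have t1 := TS_tendsto (P := P) H.conn hJ (c := fun h => (∀ v ∈ P, h v = 0) ∧
    F (Finset.univ.filter fun v => h v ≤ 0)) (fun h hh => hh.1) (fun v => ρA v + ρB v)
  have t2 := TS_tendsto (P := P ∪ Q) hcQ hJ (c := fun h => ∀ v ∈ P ∪ Q, h v = 0)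
    (fun h hh => hh) (fun v => ρA v + ρB v)
  have t3 := TS_tendsto (P := P) H.conn hJ (c := fun h => ∀ v ∈ P, h v = 0)
    (fun h hh => hh) (fun v => ρA v + ρB v)
  have t4 := TS_tendsto (P := P ∪ Q) hcQ hJ (c := fun h => ∀ v ∈ P ∪ Q, h v = 0)
    (fun h hh => hh) (fun v => ρA v - ρB v - γ v)
  refine le_of_tendsto_of_tendsto (t1.mul t2) (t3.mul t4) ?_
  obtain ⟨N, hN⟩ := exists_nat_ge (∑ e, J e)
  filter_upwards [eventually_ge_atTop (max N 1)] with m hm
  have hm1 : 1 ≤ m := (le_max_right N 1).trans hm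
  have hm' : (1 : ℝ) ≤ m := by exact_mod_cast hm1
  have hJm : ∀ e, J e ≤ m := fun e => by
    have h4 : J e ≤ ∑ e, J e :=
      Finset.single_le_sum (fun e _ => hJ e) (Finset.mem_univ e)
    have h5 : (N : ℝ) ≤ m := by exact_mod_cast (le_max_left N 1).trans hm
    linarith
  have hβ : ∀ e, 0 ≤ J e / (2 * (m : ℝ)) := fun e => div_nonneg (hJ e) (by positivity)
  have hβ' : ∀ e, J e / (2 * (m : ℝ)) ≤ 1 / 2 := fun e => by
    rw [div_le_iff₀ (by positivity)]
    linarith [hJm e]
  refine arm_kerP (m - 1) V E s t (fun e => J e / (2 * (m : ℝ))) (fun _ => m) hβ ?_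
    (fun _ => hm1) (fun _ => by omega) F A B P Q ρA ρB γ H
  intro e
  nlinarith [hβ e, hβ' e]

end

end Vale.Agent.P159.T1.H619
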