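import Vale.Agent.P159.T1.H619.ArmS

/-!
The arm bound for the kernels `kerP β m` (all heights).
-/

namespace Vale.Agent.P159.T1.H619

open Vale.Agent.P159.T1.H254 (ker kerP adjS)
open Vale.Agent.P159.T1.H897 (Wk ex)

section sub

variable {V E : Type} [Fintype V] [DecidableEq V] [Fintype E] [DecidableEq E] {s t : E → V}

omit [DecidableEq V] [DecidableEq E] in
lemma TS_congr {w w' : E → ℤ → ℝ} {c c' : (V → ℤ) → Prop} {σ σ' : V → ℝ}
    (hw : ∀ e n, w e n = w' e n) (hc : ∀ h, c h ↔ c' h) (hσ : ∀ v, σ v = σ' v) :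
    TS s t w c σ = TS s t w' c' σ' := by
  have h1 : w = w' := funext fun e => funext fun n => hw e n
  have h2 : c = c' := funext fun h => propext (hc h)
  have h3 : σ = σ' := funext hσ
  rw [h1, h2, h3]

/-- the arm bound is stable under convolution of the kernels -/
theorem arm_sub {u v : E → ℤ → ℝ} {N : ℤ} (hu : ∀ e n, N < |n| → u e n = 0)
    (hv : ∀ e n, N < |n| → v e n = 0) (h : ArmSt (sS s) (tS t) (Sum.elim u v)) :
    ArmSt s t fun e n => ∑' j, u e j * v e (n - j) := by
  intro F A B P Q ρA ρB γ H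
  have key := h _ _ _ _ _ _ _ _ H.sub
  have hcQ : ∀ v, ∃ p ∈ P ∪ Q, Relation.ReflTransGen (adjS s t ∅) p v := fun v => by
    obtain ⟨p, hp, h⟩ := H.conn v
    exact ⟨p, Finset.mem_union_left _ hp, h⟩
  rw [← TS_sub (P := P) hu hv H.conn (c := fun h => (∀ v ∈ P, h v = 0) ∧
      F (Finset.univ.filter fun v => h v ≤ 0)) (fun h hh => hh.1),
    ← TS_sub (P := P ∪ Q) hu hv hcQ (c := fun h => ∀ v ∈ P ∪ Q, h v = 0) (fun h hh => hh),
    ← TS_sub (P := P) hu hv H.conn (c := fun h => ∀ v ∈ P, h v = 0) (fun h hh => hh),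
    ← TS_sub (P := P ∪ Q) hu hv hcQ (c := fun h => ∀ v ∈ P ∪ Q, h v = 0) (fun h hh => hh)]
  have e1 : ∀ (R : Finset V) (h' : V ⊕ E → ℤ),
      (∀ v ∈ R, h' (Sum.inl v) = 0) ↔ ∀ v ∈ R.map Function.Embedding.inl, h' v = 0 := by
    intro R h'
    constructor
    · intro h1 v hv
      obtain ⟨x, hx, rfl⟩ := Finset.mem_map.1 hv
      exact h1 x hx
    · intro h1 v hv
      exact h1 _ (Finset.mem_map.2 ⟨v, hv, rfl⟩)
  have e2 : ∀ h' : V ⊕ E → ℤ, (∀ v ∈ P ∪ Q, h' (Sum.inl v) = 0) ↔
      ∀ v ∈ P.map Function.Embedding.inl ∪ Q.map Function.Embedding.inl, h' v = 0 := by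
    intro h'
    rw [e1, Finset.map_union]
  have e3 : ∀ h' : V ⊕ E → ℤ, (Finset.univ.filter fun v : V => h' (Sum.inl v) ≤ 0) =
      Finset.univ.filter fun v : V => (Sum.inl v : V ⊕ E) ∈
        Finset.univ.filter fun v' : V ⊕ E => h' v' ≤ 0 := by
    intro h'
    ext v
    simp
  have s1 : ∀ v' : V ⊕ E, (Sum.elim (fun v => ρA v + ρB v) 0 : V ⊕ E → ℝ) v' =
      (Sum.elim ρA 0 : V ⊕ E → ℝ) v' + (Sum.elim ρB 0 : V ⊕ E → ℝ) v' := by
    rintro (v | e)
    · rfl
    · simp
  have s2 : ∀ v' : V ⊕ E, (Sum.elim (fun v => ρA v - ρB v - γ v) 0 : V ⊕ E → ℝ) v' =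
      (Sum.elim ρA 0 : V ⊕ E → ℝ) v' - (Sum.elim ρB 0 : V ⊕ E → ℝ) v' -
        (Sum.elim γ 0 : V ⊕ E → ℝ) v' := by
    rintro (v | e)
    · rfl
    · simp
  rw [TS_congr (fun _ _ => rfl) (fun h' => by
      show ((∀ v ∈ P, h' (Sum.inl v) = 0) ∧
        F (Finset.univ.filter fun v => h' (Sum.inl v) ≤ 0)) ↔ _
      rw [e1 P h', e3 h']) s1,
    TS_congr (fun _ _ => rfl) e2 s1, TS_congr (fun _ _ => rfl) (e1 P) s1,
    TS_congr (fun _ _ => rfl) e2 s2]
  exact key

end sub

lemma kerP_one (β : ℝ) (n : ℤ) : kerP β 1 n = ker 1 β n := by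
  rw [H897.kerP_succ_conv, tsum_eq_single n]
  · simp [kerP]
  · intro k hk
    have : n - k ≠ 0 := sub_ne_zero.2 hk.symm
    simp [kerP, this]

lemma kerP_split (β : ℝ) {j : ℕ} (hj : 2 ≤ j) (n : ℤ) :
    kerP β j n = ∑' k : ℤ, kerP β (j - 1) k * kerP β 1 (n - k) := by
  obtain ⟨m, rfl⟩ : ∃ m, j = m + 1 := ⟨j - 1, by omega⟩
  rw [H897.kerP_succ_conv, Nat.add_sub_cancel, ← (Equiv.subLeft n).tsum_eq]
  refine tsum_congr fun k => ?_
  rw [Equiv.subLeft_apply, sub_sub_cancel, kerP_one]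

lemma kerP_split_one (β : ℝ) (n : ℤ) :
    kerP β 1 n = ∑' k : ℤ, kerP β 1 k * kerP 0 1 (n - k) := by
  rw [tsum_eq_single n]
  · rw [sub_self, kerP_one 0]
    simp [ker]
  · intro k hk
    have h1 : n - k ≠ 0 := sub_ne_zero.2 hk.symm
    rw [kerP_one 0]
    unfold ker
    simp [h1]

/-- **Arm bound** for the kernels `kerP β j`. -/
theorem arm_kerP (m : ℕ) : ∀ (V E : Type) [Fintype V] [DecidableEq V] [Fintype E] [DecidableEq E]
    (s t : E → V) (β : E → ℝ) (j : E → ℕ), (∀ e, 0 ≤ β e) → (∀ e, 2 * β e ^ 2 ≤ 1) →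
    (∀ e, 1 ≤ j e) → (∀ e, j e ≤ m + 1) → ArmSt s t fun e => kerP (β e) (j e) := by
  induction m with
  | zero =>
    intro V E _ _ _ _ s t β j hβ hβ2 h1 h2
    have hj : ∀ e, j e = 1 := fun e => by
      have := h1 e
      have := h2 e
      omega
    have e1 : (fun e => kerP (β e) (j e)) = fun e => ker 1 (β e) := by
      funext e n
      rw [hj e, kerP_one]
    rw [e1]
    exact arm_one hβ hβ2
  | succ m ih =>
    intro V E _ _ _ _ s t β j hβ hβ2 h1 h2
    set u : E → ℤ → ℝ := fun e => if j e = 1 then kerP (β e) 1 else kerP (β e) (j e - 1) with hu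
    set v : E → ℤ → ℝ := fun e => if j e = 1 then kerP 0 1 else kerP (β e) 1 with hv
    have hN1 : ∀ e n, (m + 2 : ℤ) < |n| → u e n = 0 := by
      intro e n hn
      have := h2 e
      simp only [hu]
      split_ifs
      · exact H897.kerP_zero_of _ _ _ (by push_cast; linarith)
      · refine H897.kerP_zero_of _ _ _ (lt_of_le_of_lt ?_ hn)
        have : j e - 1 ≤ m + 2 := by omega
        exact_mod_cast this
    have hN2 : ∀ e n, (m + 2 : ℤ) < |n| → v e n = 0 := by
      intro e n hn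
      simp only [hv]
      split_ifs
      · exact H897.kerP_zero_of _ _ _ (by push_cast; linarith)
      · exact H897.kerP_zero_of _ _ _ (by push_cast; linarith)
    have e1 : (fun e => kerP (β e) (j e)) = fun e n => ∑' k, u e k * v e (n - k) := by
      funext e n
      simp only [hu, hv]
      split_ifs with h
      · rw [h]
        exact kerP_split_one _ _
      · exact kerP_split _ (by have := h1 e; omega) _
    rw [e1]
    refine arm_sub hN1 hN2 ?_
    have e2 : (Sum.elim u v : E ⊕ E → ℤ → ℝ) = fun e' =>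
        kerP ((Sum.elim β fun e => if j e = 1 then 0 else β e : E ⊕ E → ℝ) e')
          ((Sum.elim (fun e => if j e = 1 then 1 else j e - 1) fun _ => 1 : E ⊕ E → ℕ) e') := by
      funext e' n
      rcases e' with e | e
      · simp only [Sum.elim_inl, hu]
        split_ifs <;> rfl
      · simp only [Sum.elim_inr, hv]
        split_ifs <;> rfl
    rw [e2]
    refine ih (V ⊕ E) (E ⊕ E) (sS s) (tS t) _ _ ?_ ?_ ?_ ?_
    · rintro (e | e)
      · exact hβ e
      · simp only [Sum.elim_inr]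
        split_ifs
        · exact le_refl _
        · exact hβ e
    · rintro (e | e)
      · exact hβ2 e
      · simp only [Sum.elim_inr]
        split_ifs
        · norm_num
        · exact hβ2 e
    · rintro (e | e)
      · simp only [Sum.elim_inl]
        split_ifs with h
        · exact le_refl _
        · have := h1 e
          omega
      · exact le_refl _
    · rintro (e | e)
      · simp only [Sum.elim_inl]
        have := h2 e
        split_ifs
        · omega
        · omega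
      · simp only [Sum.elim_inr]
        omega

end Vale.Agent.P159.T1.H619
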