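import Vale.Agent.P159.T1.H619.ArmBox
import Vale.Agent.P159.T1.H897.Fkg2
import Vale.Agent.P159.T1.H897.LogC

/-!
The arm bound for sums over all heights, and its stability under the subdivision of the edges:
the arm bound for the kernels `kerP β m`.
-/

namespace Vale.Agent.P159.T1.H619

open Vale.Agent.P159.T1.H254 (ker kerP adjS)
open Vale.Agent.P159.T1.H897 (Wk ex)

section defs

variable {V E : Type} [DecidableEq V]

/-- the hypotheses of the arm bound: `F` is an upward closed family of vertex sets (`arms`), `ρA`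
and `ρB, γ` are nonnegative and carried by `A` and `B`, and an arm together with `Q` separates `A`
from `B` -/
structure ArmHyp (s t : E → V) (F : Finset V → Prop) (A B P Q : Finset V) (ρA ρB γ : V → ℝ) :
    Prop where
  up : ∀ S T : Finset V, S ⊆ T → F S → F T
  a0 : ∀ v, 0 ≤ ρA v
  b0 : ∀ v, 0 ≤ ρB v
  g0 : ∀ v, 0 ≤ γ v
  sa : ∀ v, v ∉ A → ρA v = 0
  sb : ∀ v, v ∉ B → ρB v = 0
  sg : ∀ v, v ∉ B → γ v = 0
  sep : ∀ T, F T → ∀ x ∈ A, ∀ y ∈ B, x ∉ T ∪ Q →
    ¬ Relation.ReflTransGen (adjS s t (T ∪ Q)) x y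
  conn : ∀ v, ∃ p ∈ P, Relation.ReflTransGen (adjS s t ∅) p v

open Classical in
/-- the sum over the heights with the property `c` -/
noncomputable def TS [Fintype V] [Fintype E] (s t : E → V) (w : E → ℤ → ℝ)
    (c : (V → ℤ) → Prop) (σ : V → ℝ) : ℝ :=
  ∑' h : V → ℤ, if c h then Wk s t w h * ex σ h else 0

/-- the arm bound for the kernels `w` -/
def ArmSt [Fintype V] [Fintype E] (s t : E → V) (w : E → ℤ → ℝ) : Prop :=
  ∀ (F : Finset V → Prop) (A B P Q : Finset V) (ρA ρB γ : V → ℝ),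
    ArmHyp s t F A B P Q ρA ρB γ →
    TS s t w (fun h => (∀ v ∈ P, h v = 0) ∧ F (Finset.univ.filter fun v => h v ≤ 0))
        (fun v => ρA v + ρB v) *
      TS s t w (fun h => ∀ v ∈ P ∪ Q, h v = 0) (fun v => ρA v + ρB v) ≤
    TS s t w (fun h => ∀ v ∈ P, h v = 0) (fun v => ρA v + ρB v) *
      TS s t w (fun h => ∀ v ∈ P ∪ Q, h v = 0) (fun v => ρA v - ρB v - γ v)

end defs

section fin

variable {V E : Type} [Fintype V] [DecidableEq V] [Fintype E] {s t : E → V} {w : E → ℤ → ℝ}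

/-- finitely many heights of nonzero weight -/
lemma fin_supp {N : ℤ} (hN : ∀ e n, N < |n| → w e n = 0) {P : Finset V}
    (hP : ∀ v, ∃ p ∈ P, Relation.ReflTransGen (adjS s t ∅) p v) :
    {h : V → ℤ | (∀ v ∈ P, h v = 0) ∧ Wk s t w h ≠ 0}.Finite := by
  refine H897.finite_of_steps (P := (P : Set V)) (b := 0) (R := adjS s t ∅) (N := N) ?_ ?_ ?_
  · rintro h ⟨h1, _⟩ v hv
    exact h1 v hv
  · rintro h ⟨_, h2⟩ u v ⟨_, _, e, he⟩
    by_contra hcon
    rw [not_le] at hcon
    apply h2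
    unfold Wk
    refine Finset.prod_eq_zero (Finset.mem_univ e) (hN e _ ?_)
    rcases he with ⟨rfl, rfl⟩ | ⟨rfl, rfl⟩
    · rwa [abs_sub_comm] at hcon
    · exact hcon
  · intro v
    obtain ⟨p, hp, h⟩ := hP v
    exact ⟨p, hp, h⟩

lemma exists_bd {N : ℤ} (hN : ∀ e n, N < |n| → w e n = 0) {P : Finset V}
    (hP : ∀ v, ∃ p ∈ P, Relation.ReflTransGen (adjS s t ∅) p v) :
    ∃ M : ℕ, ∀ h : V → ℤ, (∀ v ∈ P, h v = 0) → Wk s t w h ≠ 0 → ∀ v, |h v| ≤ M := by
  have hf := fin_supp (s := s) (t := t) hN hP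
  refine ⟨hf.toFinset.sup fun h => Finset.univ.sup fun v => (h v).natAbs, fun h h1 h2 v => ?_⟩
  have h3 : (Finset.univ.sup fun v => (h v).natAbs) ≤
      hf.toFinset.sup fun h => Finset.univ.sup fun v => (h v).natAbs :=
    Finset.le_sup (f := fun h : V → ℤ => Finset.univ.sup fun v => (h v).natAbs)
      (hf.mem_toFinset.2 ⟨h1, h2⟩)
  have h4 : (h v).natAbs ≤ Finset.univ.sup fun v => (h v).natAbs :=
    Finset.le_sup (f := fun v => (h v).natAbs) (Finset.mem_univ v)
  rw [Int.abs_eq_natAbs]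
  exact_mod_cast h4.trans h3

open Classical in
lemma TS_box {P : Finset V} {M : ℕ}
    (hM : ∀ h : V → ℤ, (∀ v ∈ P, h v = 0) → Wk s t w h ≠ 0 → ∀ v, |h v| ≤ M)
    {c : (V → ℤ) → Prop} (hc : ∀ h, c h → ∀ v ∈ P, h v = 0) (σ : V → ℝ) :
    TS s t w c σ = ∑ h ∈ H773.box P M, if c h then Wk s t w h * ex σ h else 0 := by
  unfold TS
  refine tsum_eq_sum fun h hh => ?_
  split_ifs with h1
  · by_cases h2 : Wk s t w h = 0
    · rw [h2, zero_mul]
    · exact absurd (H773.mem_box.2 ⟨hM h (hc h h1) h2, hc h h1⟩) hh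
  · rfl

end fin

section base

variable {V E : Type} [Fintype V] [DecidableEq V] [Fintype E] [DecidableEq E] {s t : E → V}

/-- the arm bound for unit steps -/
theorem arm_one {β : E → ℝ} (hβ : ∀ e, 0 ≤ β e) (hβ2 : ∀ e, 2 * β e ^ 2 ≤ 1) :
    ArmSt s t fun e => ker 1 (β e) := by
  classical
  intro F A B P Q ρA ρB γ H
  have hN : ∀ (e : E) (n : ℤ), 1 < |n| → ker 1 (β e) n = 0 := fun e n hn => ker_big hn
  obtain ⟨M, hM⟩ := exists_bd (s := s) (t := t) hN H.conn
  have hM' : ∀ h : V → ℤ, (∀ v ∈ P ∪ Q, h v = 0) → Wk s t (fun e => ker 1 (β e)) h ≠ 0 →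
      ∀ v, |h v| ≤ M := fun h h1 => hM h fun v hv => h1 v (Finset.mem_union_left _ hv)
  have e1 : ∀ (P' : Finset V) (σ : V → ℝ), (∀ h : V → ℤ, (∀ v ∈ P', h v = 0) →
      Wk s t (fun e => ker 1 (β e)) h ≠ 0 → ∀ v, |h v| ≤ M) →
      TS s t (fun e => ker 1 (β e)) (fun h => ∀ v ∈ P', h v = 0) σ =
      ∑ h ∈ H773.box P' M, (∏ e, ker 1 (β e) (h (t e) - h (s e))) *
        Real.exp (H773.lin σ h) := by
    intro P' σ hP'
    rw [TS_box hP' (fun h hh => hh)]
    refine Finset.sum_congr rfl fun h hh => ?_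
    rw [if_pos (H773.mem_box.1 hh).2]
    rfl
  have key := arm_core (s := s) (t := t) hβ hβ2 H.up (P := P) H.a0 H.b0 H.g0 H.sa H.sb H.sg
    H.sep M
  rw [e1 P _ hM, e1 (P ∪ Q) _ hM', e1 (P ∪ Q) _ hM', TS_box hM (fun h hh => hh.1)]
  refine le_trans (le_of_eq ?_) key
  congr 1
  refine Finset.sum_congr rfl fun h hh => ?_
  by_cases hF : F (Finset.univ.filter fun v => h v ≤ 0)
  · rw [if_pos ⟨(H773.mem_box.1 hh).2, hF⟩, if_pos hF]
    rfl
  · rw [if_neg (fun h' => hF h'.2), if_neg hF]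

end base

/-! ### subdivision -/

/-- the sources in the graph with subdivided edges -/
def sS {V E : Type} (s : E → V) : E ⊕ E → V ⊕ E := Sum.elim (fun e => Sum.inl (s e)) Sum.inr

/-- the targets in the graph with subdivided edges -/
def tS {V E : Type} (t : E → V) : E ⊕ E → V ⊕ E := Sum.elim Sum.inr fun e => Sum.inl (t e)

section sub

variable {V E : Type} [Fintype V] [DecidableEq V] [Fintype E] [DecidableEq E] {s t : E → V}
  {F : Finset V → Prop} {A B P Q : Finset V} {ρA ρB γ : V → ℝ}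

omit [Fintype V] [Fintype E] [DecidableEq V] [DecidableEq E] in
lemma rtg_sub {u v : V} (h : Relation.ReflTransGen (adjS s t ∅) u v) :
    Relation.ReflTransGen (adjS (sS s) (tS t) ∅) (Sum.inl u) (Sum.inl v) := by
  induction h with
  | refl => exact Relation.ReflTransGen.refl
  | @tail b c _ hbc ih =>
    obtain ⟨_, _, e, he⟩ := hbc
    have h1 : adjS (sS s) (tS t) ∅ (Sum.inl (s e)) (Sum.inr e) :=
      ⟨by simp, by simp, Sum.inl e, Or.inl ⟨rfl, rfl⟩⟩
    have h2 : adjS (sS s) (tS t) ∅ (Sum.inr e) (Sum.inl (t e)) :=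
      ⟨by simp, by simp, Sum.inr e, Or.inl ⟨rfl, rfl⟩⟩
    have h1' : adjS (sS s) (tS t) ∅ (Sum.inr e) (Sum.inl (s e)) :=
      ⟨by simp, by simp, Sum.inl e, Or.inr ⟨rfl, rfl⟩⟩
    have h2' : adjS (sS s) (tS t) ∅ (Sum.inl (t e)) (Sum.inr e) :=
      ⟨by simp, by simp, Sum.inr e, Or.inr ⟨rfl, rfl⟩⟩
    rcases he with ⟨rfl, rfl⟩ | ⟨rfl, rfl⟩
    · exact (ih.tail h1).tail h2
    · exact (ih.tail h2').tail h1'

theorem ArmHyp.sub (H : ArmHyp s t F A B P Q ρA ρB γ) :
    ArmHyp (sS s) (tS t) (fun T => F (Finset.univ.filter fun v => Sum.inl v ∈ T))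
      (A.map Function.Embedding.inl) (B.map Function.Embedding.inl)
      (P.map Function.Embedding.inl) (Q.map Function.Embedding.inl)
      (Sum.elim ρA 0) (Sum.elim ρB 0) (Sum.elim γ 0) where
  up := fun S T hST h => H.up _ _ (fun v hv => by
    rw [Finset.mem_filter] at hv ⊢
    exact ⟨hv.1, hST hv.2⟩) h
  a0 := by
    rintro (v | e)
    · exact H.a0 v
    · exact le_refl _
  b0 := by
    rintro (v | e)
    · exact H.b0 v
    · exact le_refl _
  g0 := by
    rintro (v | e)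
    · exact H.g0 v
    · exact le_refl _
  sa := by
    rintro (v | e) hv
    · exact H.sa v fun h => hv (Finset.mem_map.2 ⟨v, h, rfl⟩)
    · rfl
  sb := by
    rintro (v | e) hv
    · exact H.sb v fun h => hv (Finset.mem_map.2 ⟨v, h, rfl⟩)
    · rfl
  sg := by
    rintro (v | e) hv
    · exact H.sg v fun h => hv (Finset.mem_map.2 ⟨v, h, rfl⟩)
    · rfl
  conn := by
    have h1 : ∀ v : V, ∃ p ∈ P.map Function.Embedding.inl,
        Relation.ReflTransGen (adjS (sS s) (tS t) ∅) p (Sum.inl v : V ⊕ E) := by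
      intro v
      obtain ⟨p, hp, h⟩ := H.conn v
      exact ⟨Sum.inl p, Finset.mem_map.2 ⟨p, hp, rfl⟩, rtg_sub h⟩
    rintro (v | e)
    · exact h1 v
    · obtain ⟨p, hp, h⟩ := h1 (s e)
      exact ⟨p, hp, h.tail ⟨by simp, by simp, Sum.inl e, Or.inl ⟨rfl, rfl⟩⟩⟩
  sep := by
    intro T hT x' hx' y' hy' hxT hpath
    obtain ⟨x, hx, rfl⟩ := Finset.mem_map.1 hx'
    obtain ⟨y, hy, rfl⟩ := Finset.mem_map.1 hy'
    set T0 : Finset V := Finset.univ.filter fun v => Sum.inl v ∈ T with hT0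
    have hmem : ∀ z : V, (Sum.inl z : V ⊕ E) ∉ T ∪ Q.map Function.Embedding.inl →
        z ∉ T0 ∪ Q := by
      intro z hz h
      apply hz
      rcases Finset.mem_union.1 h with h | h
      · exact Finset.mem_union_left _ (Finset.mem_filter.1 h).2
      · exact Finset.mem_union_right _ (Finset.mem_map.2 ⟨z, h, rfl⟩)
    have hx0 : x ∉ T0 ∪ Q := hmem x hxT
    have key : ∀ z' : V ⊕ E, Relation.ReflTransGen
        (adjS (sS s) (tS t) (T ∪ Q.map Function.Embedding.inl)) (Sum.inl x) z' →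
        Sum.elim (fun z => z ∉ T0 ∪ Q ∧ Relation.ReflTransGen (adjS s t (T0 ∪ Q)) x z)
          (fun e => ∃ z, (z = s e ∨ z = t e) ∧ z ∉ T0 ∪ Q ∧
            Relation.ReflTransGen (adjS s t (T0 ∪ Q)) x z) z' := by
      intro z' hz'
      induction hz' with
      | refl => exact ⟨hx0, Relation.ReflTransGen.refl⟩
      | @tail b c _ hbc ih =>
        obtain ⟨hb, hc, e', he'⟩ := hbc
        rcases e' with e | e
        · rcases he' with ⟨rfl, rfl⟩ | ⟨rfl, rfl⟩
          · -- inl (s e) -> inr e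
            exact ⟨s e, Or.inl rfl, ih.1, ih.2⟩
          · -- inr e -> inl (s e)
            obtain ⟨z, hz, hz1, hz2⟩ := ih
            have hse := hmem (s e) hc
            refine ⟨hse, ?_⟩
            rcases hz with rfl | rfl
            · exact hz2
            · exact hz2.tail ⟨hz1, hse, e, Or.inr ⟨rfl, rfl⟩⟩
        · rcases he' with ⟨rfl, rfl⟩ | ⟨rfl, rfl⟩
          · -- inr e -> inl (t e)
            obtain ⟨z, hz, hz1, hz2⟩ := ih
            have hte := hmem (t e) hc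
            refine ⟨hte, ?_⟩
            rcases hz with rfl | rfl
            · exact hz2.tail ⟨hz1, hte, e, Or.inl ⟨rfl, rfl⟩⟩
            · exact hz2
          · -- inl (t e) -> inr e
            exact ⟨t e, Or.inr rfl, ih.1, ih.2⟩
    exact H.sep T0 hT x hx y hy hx0 (key (Sum.inl y) hpath).2

/-! ### summation over the new heights -/

omit [DecidableEq V] [Fintype V] in
lemma tsum_pi_prod {φ : E → ℤ → ℝ} {N : E → Finset ℤ} (hN : ∀ e, ∀ j ∉ N e, φ e j = 0) :
    ∑' g : E → ℤ, ∏ e, φ e (g e) = ∏ e, ∑' j, φ e j := by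
  rw [tsum_eq_sum (s := Fintype.piFinset N)]
  · rw [← Finset.prod_univ_sum]
    refine Finset.prod_congr rfl fun e _ => ?_
    rw [tsum_eq_sum (s := N e) fun j hj => hN e j hj]
  · intro g hg
    rw [Fintype.mem_piFinset] at hg
    push Not at hg
    obtain ⟨e, he⟩ := hg
    exact Finset.prod_eq_zero (Finset.mem_univ e) (hN e _ he)

theorem TS_sub {u v : E → ℤ → ℝ} {N : ℤ} (hu : ∀ e n, N < |n| → u e n = 0)
    (hv : ∀ e n, N < |n| → v e n = 0) (hconn : ∀ v, ∃ p ∈ P, Relation.ReflTransGen (adjS s t ∅) p v)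
    {c : (V → ℤ) → Prop} (hc : ∀ h, c h → ∀ v ∈ P, h v = 0) (σ : V → ℝ) :
    TS (sS s) (tS t) (Sum.elim u v) (fun h' => c fun x => h' (Sum.inl x)) (Sum.elim σ 0) =
      TS s t (fun e n => ∑' j, u e j * v e (n - j)) c σ := by
  classical
  set w' : E ⊕ E → ℤ → ℝ := Sum.elim u v with hw'
  have hN' : ∀ (e : E ⊕ E) (n : ℤ), N < |n| → w' e n = 0 := by
    rintro (e | e) n hn
    · exact hu e n hn
    · exact hv e n hn
  have hconn' : ∀ v' : V ⊕ E, ∃ p ∈ P.map Function.Embedding.inl,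
      Relation.ReflTransGen (adjS (sS s) (tS t) ∅) p v' := by
    have h1 : ∀ v : V, ∃ p ∈ P.map Function.Embedding.inl,
        Relation.ReflTransGen (adjS (sS s) (tS t) ∅) p (Sum.inl v : V ⊕ E) := by
      intro v
      obtain ⟨p, hp, h⟩ := hconn v
      exact ⟨Sum.inl p, Finset.mem_map.2 ⟨p, hp, rfl⟩, rtg_sub h⟩
    rintro (v | e)
    · exact h1 v
    · obtain ⟨p, hp, h⟩ := h1 (s e)
      exact ⟨p, hp, h.tail ⟨by simp, by simp, Sum.inl e, Or.inl ⟨rfl, rfl⟩⟩⟩
  have hf := fin_supp (s := sS s) (t := tS t) hN' hconn'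
  have hs : Summable fun h' : V ⊕ E → ℤ => if c (fun x => h' (Sum.inl x)) then
      Wk (sS s) (tS t) w' h' * ex (Sum.elim σ 0) h' else 0 := by
    refine summable_of_ne_finset_zero (s := hf.toFinset) fun h' hh => ?_
    split_ifs with h1
    · by_cases h2 : Wk (sS s) (tS t) w' h' = 0
      · rw [h2, zero_mul]
      · refine absurd (hf.mem_toFinset.2 ⟨?_, h2⟩) hh
        intro p hp
        obtain ⟨x, hx, rfl⟩ := Finset.mem_map.1 hp
        exact hc _ h1 x hx
    · rfl
  have hs' := (Equiv.sumArrowEquivProdArrow V E ℤ).symm.summable_iff.2 hs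
  unfold TS
  rw [← (Equiv.sumArrowEquivProdArrow V E ℤ).symm.tsum_eq]
  refine (Summable.tsum_prod hs').trans ?_
  refine tsum_congr fun h => ?_
  simp only [Function.comp_apply]
  by_cases h1 : c h
  · rw [if_pos h1]
    have e1 : ∀ g : E → ℤ, (if c (fun x => ((Equiv.sumArrowEquivProdArrow V E ℤ).symm (h, g))
        (Sum.inl x)) then Wk (sS s) (tS t) w' ((Equiv.sumArrowEquivProdArrow V E ℤ).symm (h, g)) *
          ex (Sum.elim σ 0) ((Equiv.sumArrowEquivProdArrow V E ℤ).symm (h, g)) else 0) =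
        (∏ e, (u e (g e - h (s e)) * v e (h (t e) - g e))) * ex σ h := by
      intro g
      have h1' : c (fun x => ((Equiv.sumArrowEquivProdArrow V E ℤ).symm (h, g)) (Sum.inl x)) := h1
      rw [if_pos h1']
      congr 1
      · unfold Wk
        rw [Fintype.prod_sum_type, ← Finset.prod_mul_distrib]
        rfl
      · unfold ex
        rw [Fintype.sum_sum_type]
        simp
    rw [tsum_congr e1, tsum_mul_right]
    congr 1
    have hN2 : ∀ e : E, ∀ j ∉ Finset.Icc (h (s e) - N) (h (s e) + N),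
        u e (j - h (s e)) * v e (h (t e) - j) = 0 := by
      intro e j hj
      rw [hu e _ (by
        rw [Finset.mem_Icc] at hj
        rw [lt_abs]
        omega), zero_mul]
    rw [tsum_pi_prod (φ := fun e j => u e (j - h (s e)) * v e (h (t e) - j)) hN2]
    unfold Wk
    refine Finset.prod_congr rfl fun e _ => ?_
    rw [← (Equiv.addRight (h (s e))).tsum_eq]
    refine tsum_congr fun j => ?_
    simp only [Equiv.coe_addRight, add_sub_cancel_right]
    congr 2
    ring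
  · rw [if_neg h1]
    have e1 : ∀ g : E → ℤ, (if c (fun x => ((Equiv.sumArrowEquivProdArrow V E ℤ).symm (h, g))
        (Sum.inl x)) then Wk (sS s) (tS t) w' ((Equiv.sumArrowEquivProdArrow V E ℤ).symm (h, g)) *
          ex (Sum.elim σ 0) ((Equiv.sumArrowEquivProdArrow V E ℤ).symm (h, g)) else 0) = 0 := by
      intro g
      exact if_neg h1
    rw [tsum_congr e1, tsum_zero]

end sub

end Vale.Agent.P159.T1.H619
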