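import Mathlib

/-!
# Griffiths' inequalities for sign variables

`V → Bool` are the sign configurations, `sg b = ± 1`, `χ S ε = ∏ v ∈ S, sg (ε v)`.
`Cn F` : `F` is a combination of characters with nonnegative coefficients.
`gks2` : `(∑ μ F) (∑ μ G) ≤ (∑ μ F G) (∑ μ)` for `F`, `G` in the cone and a weight `μ` such that
`ε ↦ μ ε μ (ε η)` is in the cone for every `η`.
-/

namespace Vale.Agent.P159.T1.H619

set_option linter.unusedSectionVars false

variable {V : Type*} [Fintype V] [DecidableEq V]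

/-- the sign -/
def sg (b : Bool) : ℝ := if b then 1 else -1

@[simp] theorem sg_true : sg true = 1 := rfl
@[simp] theorem sg_false : sg false = -1 := rfl

theorem sg_mul_self (b : Bool) : sg b * sg b = 1 := by cases b <;> norm_num

theorem sg_xor (a b : Bool) : sg (a == b) = sg a * sg b := by cases a <;> cases b <;> norm_num [sg]

theorem sg_cases (b : Bool) : sg b = 1 ∨ sg b = -1 := by cases b <;> simp

/-- the characters -/
def chi (S : Finset V) (ε : V → Bool) : ℝ := ∏ v ∈ S, sg (ε v)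

theorem chi_mul (S T : Finset V) (ε : V → Bool) :
    chi S ε * chi T ε = chi (symmDiff S T) ε := by
  unfold chi
  have h1 : ∏ v ∈ S, sg (ε v) = (∏ v ∈ S \ T, sg (ε v)) * ∏ v ∈ S ∩ T, sg (ε v) := by
    rw [← Finset.prod_union (Finset.disjoint_sdiff_inter S T), Finset.sdiff_union_inter]
  have h2 : ∏ v ∈ T, sg (ε v) = (∏ v ∈ T \ S, sg (ε v)) * ∏ v ∈ S ∩ T, sg (ε v) := by
    rw [Finset.inter_comm S T, ← Finset.prod_union (Finset.disjoint_sdiff_inter T S),
      Finset.sdiff_union_inter]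
  have h3 : ∏ v ∈ symmDiff S T, sg (ε v) = (∏ v ∈ S \ T, sg (ε v)) * ∏ v ∈ T \ S, sg (ε v) := by
    rw [← Finset.prod_union disjoint_sdiff_sdiff]
    rfl
  have h4 : (∏ v ∈ S ∩ T, sg (ε v)) * ∏ v ∈ S ∩ T, sg (ε v) = 1 := by
    rw [← Finset.prod_mul_distrib]
    exact Finset.prod_eq_one fun v _ => sg_mul_self _
  rw [h1, h2, h3]
  calc _ = (∏ v ∈ S \ T, sg (ε v)) * (∏ v ∈ T \ S, sg (ε v)) *
      ((∏ v ∈ S ∩ T, sg (ε v)) * ∏ v ∈ S ∩ T, sg (ε v)) := by ring
    _ = _ := by rw [h4, mul_one]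

/-- the product of two sign configurations -/
def tw (ε η : V → Bool) : V → Bool := fun v => ε v == η v

theorem chi_tw (S : Finset V) (ε η : V → Bool) : chi S (tw ε η) = chi S ε * chi S η := by
  unfold chi tw
  rw [← Finset.prod_mul_distrib]
  exact Finset.prod_congr rfl fun v _ => sg_xor _ _

theorem tw_tw (ε η : V → Bool) : tw ε (tw ε η) = η := by
  funext v
  unfold tw
  cases ε v <;> cases η v <;> rfl

theorem chi_cases (S : Finset V) (ε : V → Bool) : chi S ε = 1 ∨ chi S ε = -1 := by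
  unfold chi
  induction S using Finset.induction_on with
  | empty => simp
  | insert a s ha ih =>
    rw [Finset.prod_insert ha]
    rcases ih with h | h <;> rcases sg_cases (ε a) with h' | h' <;> rw [h, h'] <;> norm_num

/-- the cone of the combinations of characters with nonnegative coefficients -/
def Cn (F : (V → Bool) → ℝ) : Prop :=
  ∃ c : Finset V → ℝ, (∀ S, 0 ≤ c S) ∧ ∀ ε, F ε = ∑ S, c S * chi S ε

theorem Cn.mul {F G : (V → Bool) → ℝ} (hF : Cn F) (hG : Cn G) : Cn fun ε => F ε * G ε := by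
  obtain ⟨c, hc, hF⟩ := hF
  obtain ⟨d, hd, hG⟩ := hG
  refine ⟨fun U => ∑ S, ∑ T, if symmDiff S T = U then c S * d T else 0, fun U => ?_, fun ε => ?_⟩
  · refine Finset.sum_nonneg fun S _ => Finset.sum_nonneg fun T _ => ?_
    split_ifs
    · exact mul_nonneg (hc S) (hd T)
    · exact le_rfl
  · show F ε * G ε = _
    rw [hF, hG, Finset.sum_mul_sum]
    simp only [Finset.sum_mul]
    rw [Finset.sum_comm (s := Finset.univ) (t := Finset.univ)
      (f := fun U S => ∑ T, (if symmDiff S T = U then c S * d T else 0) * H619.chi U ε)]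
    refine Finset.sum_congr rfl fun S _ => ?_
    rw [Finset.sum_comm]
    refine Finset.sum_congr rfl fun T _ => ?_
    simp only [ite_mul, zero_mul]
    rw [Finset.sum_ite_eq]
    simp only [Finset.mem_univ, if_true]
    rw [← chi_mul]
    ring

theorem Cn.add {F G : (V → Bool) → ℝ} (hF : Cn F) (hG : Cn G) : Cn fun ε => F ε + G ε := by
  obtain ⟨c, hc, hF⟩ := hF
  obtain ⟨d, hd, hG⟩ := hG
  refine ⟨fun S => c S + d S, fun S => add_nonneg (hc S) (hd S), fun ε => ?_⟩
  show F ε + G ε = _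
  rw [hF, hG, ← Finset.sum_add_distrib]
  exact Finset.sum_congr rfl fun S _ => by ring

theorem Cn.const_mul {F : (V → Bool) → ℝ} (hF : Cn F) {a : ℝ} (ha : 0 ≤ a) :
    Cn fun ε => a * F ε := by
  obtain ⟨c, hc, hF⟩ := hF
  refine ⟨fun S => a * c S, fun S => mul_nonneg ha (hc S), fun ε => ?_⟩
  show a * F ε = _
  rw [hF, Finset.mul_sum]
  exact Finset.sum_congr rfl fun S _ => by ring

theorem Cn.chi (S : Finset V) : Cn (chi S) := by
  refine ⟨fun T => if T = S then 1 else 0, fun T => ?_, fun ε => ?_⟩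
  · show (0 : ℝ) ≤ if T = S then 1 else 0
    split_ifs <;> norm_num
  · simp

theorem chi_empty (ε : V → Bool) : H619.chi ∅ ε = 1 := by simp [H619.chi]

theorem chi_singleton (v : V) (ε : V → Bool) : H619.chi {v} ε = sg (ε v) := by
  simp [H619.chi]

theorem Cn.congr {F G : (V → Bool) → ℝ} (hF : Cn F) (h : ∀ ε, G ε = F ε) : Cn G := by
  have : G = F := funext h
  rw [this]
  exact hF

theorem Cn.const {a : ℝ} (ha : 0 ≤ a) : Cn fun _ : V → Bool => a := by
  exact ((Cn.chi (∅ : Finset V)).const_mul ha).congr fun ε => by rw [chi_empty, mul_one]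

theorem Cn.sg (v : V) : Cn fun ε => H619.sg (ε v) := by
  obtain ⟨c, hc, h⟩ := Cn.chi ({v} : Finset V)
  exact ⟨c, hc, fun ε => by rw [← h, chi_singleton]⟩

theorem Cn.prod {ι : Type*} (I : Finset ι) (F : ι → (V → Bool) → ℝ) (h : ∀ i ∈ I, Cn (F i)) :
    Cn fun ε => ∏ i ∈ I, F i ε := by
  classical
  induction I using Finset.induction_on with
  | empty => simpa only [Finset.prod_empty] using Cn.const (V := V) zero_le_one
  | insert a s ha ih =>
    have h1 := (h a (Finset.mem_insert_self a s)).mul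
      (ih fun i hi => h i (Finset.mem_insert_of_mem hi))
    exact h1.congr fun ε => by rw [Finset.prod_insert ha]

/-- `exp (a sg)` -/
theorem exp_sg (a : ℝ) (b : Bool) : Real.exp (a * sg b) = Real.cosh a + Real.sinh a * sg b := by
  cases b
  · rw [sg_false, mul_neg_one, mul_neg_one, Real.cosh_eq, Real.sinh_eq]
    ring
  · rw [sg_true, mul_one, mul_one, Real.cosh_eq, Real.sinh_eq]
    ring

theorem Cn.exp {a : ℝ} (ha : 0 ≤ a) (v : V) : Cn fun ε => Real.exp (a * H619.sg (ε v)) := by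
  have h := (Cn.const (V := V) (Real.cosh_pos a).le).add
    ((Cn.sg v).const_mul (Real.sinh_nonneg_iff.2 ha))
  exact h.congr fun ε => exp_sg _ _

/-- the indicator of `sg a = sg b` -/
def eqI (a b : Bool) : ℝ := if a = b then 1 else 0

theorem eqI_eq (a b : Bool) : eqI a b = 1 / 2 + 1 / 2 * (sg a * sg b) := by
  cases a <;> cases b <;> norm_num [eqI, sg]

theorem Cn.eqI (u v : V) : Cn fun ε => H619.eqI (ε u) (ε v) := by
  have h := (Cn.const (V := V) (by norm_num : (0 : ℝ) ≤ 1 / 2)).add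
    (((Cn.sg u).mul (Cn.sg v)).const_mul (by norm_num : (0 : ℝ) ≤ 1 / 2))
  exact h.congr fun ε => eqI_eq _ _

/-- sum of a character -/
theorem sum_chi (S : Finset V) : 0 ≤ ∑ ε, chi S ε := by
  by_cases hS : S = ∅
  · subst hS
    refine Finset.sum_nonneg fun ε _ => ?_
    rw [chi_empty]
    norm_num
  · obtain ⟨v, hv⟩ := Finset.nonempty_iff_ne_empty.2 hS
    have h1 : ∑ ε : V → Bool, chi S ε = ∑ ε : V → Bool, chi S (Function.update ε v (!ε v)) := by
      refine (Finset.sum_nbij' (fun ε => Function.update ε v (!ε v))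
        (fun ε => Function.update ε v (!ε v)) (by simp) (by simp) ?_ ?_ ?_)
      · intro ε _
        funext w
        by_cases hw : w = v
        · subst hw
          simp
        · simp [Function.update_of_ne hw]
      · intro ε _
        funext w
        by_cases hw : w = v
        · subst hw
          simp
        · simp [Function.update_of_ne hw]
      · intro ε _
        congr 1
        funext w
        by_cases hw : w = v
        · subst hw
          simp
        · simp [Function.update_of_ne hw]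
    have h2 : ∀ ε : V → Bool, chi S (Function.update ε v (!ε v)) = - chi S ε := by
      intro ε
      unfold chi
      rw [← Finset.mul_prod_erase _ _ hv, ← Finset.mul_prod_erase S (fun w => sg (ε w)) hv]
      have h3 : ∏ w ∈ S.erase v, sg (Function.update ε v (!ε v) w) = ∏ w ∈ S.erase v, sg (ε w) := by
        refine Finset.prod_congr rfl fun w hw => ?_
        rw [Function.update_of_ne (Finset.ne_of_mem_erase hw)]
      rw [h3, Function.update_self]
      cases ε v <;> simp
    rw [Finset.sum_congr rfl fun ε _ => h2 ε, Finset.sum_neg_distrib] at h1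
    linarith

theorem Cn.sum_nonneg {F : (V → Bool) → ℝ} (hF : Cn F) : 0 ≤ ∑ ε, F ε := by
  obtain ⟨c, hc, hF⟩ := hF
  simp only [hF]
  rw [Finset.sum_comm]
  refine Finset.sum_nonneg fun S _ => ?_
  rw [← Finset.mul_sum]
  exact mul_nonneg (hc S) (sum_chi S)

/-- `F ε - F (ε η)` is in the cone -/
theorem Cn.sub_tw {F : (V → Bool) → ℝ} (hF : Cn F) (η : V → Bool) :
    Cn fun ε => F ε - F (tw ε η) := by
  obtain ⟨c, hc, hF⟩ := hF
  refine ⟨fun S => c S * (1 - H619.chi S η), fun S => ?_, fun ε => ?_⟩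
  · refine mul_nonneg (hc S) ?_
    rcases chi_cases S η with h | h <;> rw [h] <;> norm_num
  · show F ε - F (tw ε η) = _
    rw [hF, hF, ← Finset.sum_sub_distrib]
    refine Finset.sum_congr rfl fun S _ => ?_
    rw [chi_tw]
    ring

/-- **Griffiths' second inequality.** -/
theorem gks2 {μ F G : (V → Bool) → ℝ} (hμ : ∀ η, Cn fun ε => μ ε * μ (tw ε η)) (hF : Cn F)
    (hG : Cn G) :
    (∑ ε, μ ε * F ε) * (∑ ε, μ ε * G ε) ≤ (∑ ε, μ ε * (F ε * G ε)) * ∑ ε, μ ε := by
  have h1 : 0 ≤ ∑ η, ∑ ε, (μ ε * μ (tw ε η)) * ((F ε - F (tw ε η)) * (G ε - G (tw ε η))) :=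
    Finset.sum_nonneg fun η _ => ((hμ η).mul ((hF.sub_tw η).mul (hG.sub_tw η))).sum_nonneg
  have h2 : ∑ η, ∑ ε, (μ ε * μ (tw ε η)) * ((F ε - F (tw ε η)) * (G ε - G (tw ε η))) =
      ∑ ε, ∑ ζ, (μ ε * μ ζ) * ((F ε - F ζ) * (G ε - G ζ)) := by
    rw [Finset.sum_comm]
    refine Finset.sum_congr rfl fun ε _ => ?_
    refine Finset.sum_nbij' (fun η => tw ε η) (fun ζ => tw ε ζ) (by simp) (by simp)
      (fun η _ => tw_tw ε η) (fun ζ _ => tw_tw ε ζ) (fun η _ => rfl)
  rw [h2] at h1
  have h3 : ∑ ε, ∑ ζ, (μ ε * μ ζ) * ((F ε - F ζ) * (G ε - G ζ)) =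
      2 * ((∑ ε, μ ε * (F ε * G ε)) * ∑ ε, μ ε) - 2 * ((∑ ε, μ ε * F ε) * (∑ ε, μ ε * G ε)) := by
    have e1 : ∀ ε ζ, (μ ε * μ ζ) * ((F ε - F ζ) * (G ε - G ζ)) =
        (μ ε * (F ε * G ε)) * μ ζ + μ ε * (μ ζ * (F ζ * G ζ)) - (μ ε * F ε) * (μ ζ * G ζ) -
          (μ ε * G ε) * (μ ζ * F ζ) := fun ε ζ => by ring
    simp only [e1, Finset.sum_add_distrib, Finset.sum_sub_distrib, ← Finset.mul_sum,
      ← Finset.sum_mul]
    ring
  rw [h3] at h1
  linarith

end Vale.Agent.P159.T1.H619
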